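import Mathlib

/-! The superstring algorithm as plain list functions. -/

namespace Vale.Agent.P333

variable {α : Type} [DecidableEq α] [Inhabited α]

def pre (a b : List α) : Bool := decide (b.take a.length = a)

def ext (w : List α) (p j n : ℕ) : List α :=
  (List.range n).map fun k => w.getD ((j + k) % p) default

def cnt (D : List (List α)) (u : List α) : ℕ := D.countP fun W => pre u W

def tot (S : List (List α)) : ℕ := (S.flatMap fun w => w).length

def facs (S : List (List α)) (n : ℕ) : List (List α) :=
  S.flatMap fun w => (List.range (w.length + 1 - n)).map fun i => (w.drop i).take n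

def allFacs (S : List (List α)) : List (List α) :=
  (List.range (tot S)).reverse.flatMap fun n => facs S (n + 1)

def isInf (w s : List α) : Bool := (List.range (s.length + 1)).any fun i => pre w (s.drop i)

def isMax (S : List (List α)) (w : List α) : Bool :=
  S.all fun s => !(isInf w s) || decide (s.length ≤ w.length)

def outB (w : List α) (p i n : ℕ) (W : List α) : Bool := pre (ext w p i (n + p)) W

def certB (w : List α) (p i n o : ℕ) (W : List α) : Bool :=
  !(pre (ext w p (i + (o + 1) * (p - 1)) 1) W) &&
    (pre (ext w p (i + (o + 1) * (p - 1) + 1) (o + n)) W.tail &&
      !(pre ((W.drop (o + 1 + n)).take p) (ext w p (i + n) p)))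

def ruleVal (B : ℕ) (D : List (List α)) (w : List α) (p i n : ℕ) : ℕ :=
  1 + D.countP (fun W => outB w p i n W) +
    ((List.range B).flatMap fun o => D.filter fun W => certB w p i n o W).length

def anchors (S : List (List α)) (u : List α) : List (List α × ℕ × ℕ) :=
  (S.flatMap fun w => (List.range w.length).flatMap fun p =>
    (List.range w.length).map fun i => (w, p + 1, i)).filter fun x =>
      isMax S x.1 && (decide (ext x.1 x.2.1 0 x.1.length = x.1) && pre u (x.1.drop x.2.2))

def need (S D : List (List α)) (u : List α) : ℕ :=
  ((anchors S u).map fun x => ruleVal (tot S) D x.1 x.2.1 x.2.2 u.length).foldl max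
    (max 1 (D.countP fun W => pre u W.tail))

def tstep (S D : List (List α)) (u : List α) : List (List α) :=
  D ++ List.replicate (need S D u - cnt D u) u

def tokens (S : List (List α)) : List (List α) := (allFacs S).foldl (tstep S) []

def lastT (A : List (List α)) : List α := (A.getLastD []).tail

def hd (A : List (List α)) : List α := A.headD []

def rem {β : Type} (P : List β) (k : ℕ) : List β := P.take k ++ P.drop (k + 1)

def pick (P : List (List (List α))) : ℕ :=
  ((List.range P.length).filter fun k =>
    P.all fun B => decide ((lastT B).length ≤ (lastT (P.getD k [])).length)).headD 0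

def pick2 (t : List α) (P : List (List (List α))) : ℕ :=
  ((List.range P.length).filter fun l => pre t (hd (P.getD l []))).headD 0

def join (A : List (List α)) (P Cy : List (List (List α))) :
    List (List (List α)) × List (List (List α)) :=
  bif pre (lastT A) (hd A) then (P, A :: Cy)
  else ((A ++ P.getD (pick2 (lastT A) P) []) :: rem P (pick2 (lastT A) P), Cy)

def cstep (st : List (List (List α)) × List (List (List α))) :
    List (List (List α)) × List (List (List α)) :=
  bif st.1.isEmpty then st else join (st.1.getD (pick st.1) []) (rem st.1 (pick st.1)) st.2

def cycles (D : List (List α)) : List (List (List α)) :=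
  (D.foldl (fun st _ => cstep st) (D.map fun W => [W], [])).2

def rot {β : Type} (K : List β) (l : ℕ) : List β := K.drop l ++ K.take l

def spl (L K : List (List α)) : List (List (List α)) :=
  (List.range L.length).flatMap fun k =>
    ((List.range K.length).filter fun l =>
      pre (lastT (L.take (k + 1))) (hd (rot K l)) &&
        pre (lastT (rot K l)) (hd (L.drop (k + 1)))).map
      fun l => L.take (k + 1) ++ (rot K l ++ L.drop (k + 1))

def astep (st : List (List α) × List (List (List α))) (K : List (List α)) :
    List (List α) × List (List (List α)) :=
  bif (spl st.1 K).isEmpty then (st.1, st.2 ++ [K]) else ((spl st.1 K).headD [], st.2)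

def absorb (L : List (List α)) (Rem : List (List (List α))) :
    List (List α) × List (List (List α)) := Rem.foldl astep (L, [])

def tryMove (st : List (List α) × List (List (List α))) (Λ : List (List α)) :
    List (List α) × List (List (List α)) := absorb ((spl st.1 Λ).headD st.1) st.2

def phi (st : List (List α) × List (List (List α))) : ℕ :=
  st.1.length + 2 * (st.2.flatMap fun K => K).length

def accept (st st' : List (List α) × List (List (List α))) : Bool :=
  decide (st'.2.length < st.2.length) && decide (phi st' ≤ phi st)

def loopT (t : List α) (p : ℕ) : List (List α) := (List.range p).map fun j => t.drop j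

def texts (Cy : List (List (List α))) (B : ℕ) : List (List α) :=
  Cy.flatMap fun K => (List.range K.length).flatMap fun q =>
    (List.range (B + 1)).map fun n => ext (K.map fun W => W.headD default) K.length q n

def moves (Cy : List (List (List α))) (B : ℕ) : List (List (List α)) :=
  (texts Cy B).flatMap fun t =>
    ((List.range (t.length + 1)).filter fun p => pre (t.drop p) t).map fun p => loopT t p

def round (Mv : List (List (List α))) (st : List (List α) × List (List (List α))) :
    List (List α) × List (List (List α)) :=
  ((Mv.map fun Λ => tryMove st Λ).filter fun st' => accept st st').headD st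

def run (Mv Cy : List (List (List α))) : List (List α) × List (List (List α)) :=
  (List.range (Cy.length + 1)).foldl (fun st _ => round Mv st) ([[]], Cy)

def solve (S : List (List α)) : List α :=
  (run (moves (cycles (tokens S)) (2 * tot S)) (cycles (tokens S))).1.flatMap fun W => W.take 1

end Vale.Agent.P333
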