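import Mathlib

/-! Abstract connecting lemma for periodic layers. -/

namespace Vale.Agent.P333

variable {α ι : Type}

/-- The window `[i, e)` of a two-sided sequence. -/
def win (f : ℤ → α) (i e : ℤ) : List α := (List.range (e - i).toNat).map fun k : ℕ => f (i + k)

lemma win_length (f : ℤ → α) (i e : ℤ) : (win f i e).length = (e - i).toNat := by simp [win]

lemma win_congr {f g : ℤ → α} {i e : ℤ} (s : ℤ) (h : ∀ n, i ≤ n → n < e → f n = g (n + s)) :
    win f i e = win g (i + s) (e + s) := by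
  unfold win
  have : e + s - (i + s) = e - i := by ring
  rw [this]
  refine List.map_congr_left fun k hk => ?_
  have := List.mem_range.1 hk
  rw [h _ (by omega) (by omega)]
  congr 1
  ring

lemma win_self (f : ℤ → α) (i : ℤ) : win f i i = [] := by simp [win]

lemma win_append (f : ℤ → α) {a b c : ℤ} (h1 : a ≤ b) (h2 : b ≤ c) :
    win f a b ++ win f b c = win f a c := by
  unfold win
  have : (c - a).toNat = (b - a).toNat + (c - b).toNat := by omega
  rw [this, List.range_add, List.map_append, List.map_map]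
  congr 1
  refine List.map_congr_left fun k _ => ?_
  simp only [Function.comp]
  congr 1
  push_cast
  omega

lemma win_infix (f : ℤ → α) {i a b e : ℤ} (h1 : i ≤ a) (h2 : a ≤ b) (h3 : b ≤ e) :
    win f a b <:+: win f i e :=
  ⟨win f i a, win f b e, by rw [win_append f h1 h2, win_append f (h1.trans h2) h3]⟩

lemma fw (f g : ℤ → α) {p c : ℕ} (hp : 0 < p) (hc : 0 < c) (hf : ∀ n, f (n + p) = f n)
    (hg : ∀ n, g (n + c) = g n) {a b : ℤ} (h : ∀ n, a < n → n < b → f n = g n)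
    (hab : a + p + c < b) : f a = g a := by
  have e1 : f a = g (a + p) := by rw [← hf a, h _ (by omega) (by omega)]
  have e2 : g (a + p) = f (a + p + c) := by rw [← hg (a + p), h _ (by omega) (by omega)]
  have e3 : f (a + p + c) = f (a + c) := by rw [← hf (a + c)]; congr 1; ring
  rw [e1, e2, e3, h _ (by omega) (by omega), hg]

/-- A family of periodic layers. -/
structure Sys (ι α : Type) where
  c : ι → ℕ
  τ : ι → ℤ → α
  ζ : ι → ℤ → ℤ
  c_pos : ∀ k, 0 < c k
  τ_per : ∀ k i, τ k (i + c k) = τ k i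
  ζ_per : ∀ k i, ζ k (i + c k) = ζ k i + c k
  ζ_mono : ∀ k, Monotone (ζ k)
  ζ_gt : ∀ k i, i < ζ k i

/-- Vertices of a layer. -/
def Sys.V (S : Sys ι α) (k : ι) (v : List α) : Prop :=
  ∃ i e, S.ζ k (i - 1) ≤ e ∧ e ≤ S.ζ k i ∧ v = win (S.τ k) i e

/-- Vertices of the loop of the window `[i, E)` with period `p`. -/
def LV (i E : ℤ) (p : ℕ) (a b : ℤ) : Prop :=
  (a = i ∧ E - p ≤ b ∧ b ≤ E) ∨ (i ≤ a ∧ a ≤ i + p ∧ b = E)

/-- A cheap loop that touches a grounded vertex and some ungrounded layers. -/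
def Move (S : Sys ι α) (R : ι → Prop) (G : List α → Prop) (M : ℕ) (C : ℤ → α) : Prop :=
  ∃ (i E : ℤ) (p : ℕ) (Q : Finset ι), 0 < p ∧ i + p ≤ E ∧
    (∀ n, i ≤ n → n + p < E → C (n + p) = C n) ∧ (∃ a b, LV i E p a b ∧ G (win C a b)) ∧
    Q.Nonempty ∧ (∀ k ∈ Q, R k ∧ ∃ a b, LV i E p a b ∧ S.V k (win C a b)) ∧
    p ≤ ∑ k ∈ Q, S.c k ∧ E - i ≤ M + ∑ k ∈ Q, S.c k

/-- A window of a layer that is neither continued periodically nor blocked on both sides. -/
def Host (S : Sys ι α) (C : ℤ → α) (p : ℕ) (i e : ℤ) (k : ι) (q : ℤ) : Prop :=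
  (∀ n, i ≤ n → n < e → S.τ k (q + n) = C n) ∧ e ≤ S.ζ k (q + i) - q ∧
  ¬ (e + p ≤ S.ζ k (q + i) - q ∧ ∀ n, i ≤ n → n < e + p → S.τ k (q + n) = C n) ∧
  ∀ a, a < i → ¬ (S.τ k (q + a) ≠ C a ∧ (∀ n, a < n → n < e → S.τ k (q + n) = C n) ∧
    ∃ b, e ≤ b ∧ b < e + p ∧ b < S.ζ k (q + a) - q ∧ S.τ k (q + b) ≠ C b)

lemma per_mul {f : ℤ → α} {p : ℕ} (hf : ∀ n, f (n + p) = f n) (m n : ℤ) :
    f (n + m * p) = f n :=
  (Function.Periodic.int_mul (f := f) (c := (p : ℤ)) hf m) n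

lemma Sys.ζ_mul (S : Sys ι α) (k : ι) (m n : ℤ) :
    S.ζ k (n + m * S.c k) = S.ζ k n + m * S.c k := by
  have := per_mul (f := fun n => S.ζ k n - n) (p := S.c k)
    (fun n => by simp only [S.ζ_per]; ring) m n
  linarith

lemma exists_shift {p : ℕ} (hp : 0 < p) (a j : ℤ) :
    ∃ m : ℤ, a ≤ j + m * p ∧ j + m * p < a + p := by
  have h0 : (0 : ℤ) < p := by exact_mod_cast hp
  refine ⟨-((j - a) / p), ?_, ?_⟩
  · have := Int.ediv_mul_le (j - a) h0.ne'
    linarith
  · have := Int.lt_ediv_add_one_mul_self (j - a) h0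
    linarith

lemma Sys.vtx (S : Sys ι α) {C : ℤ → α} {k : ι} {q a b : ℤ}
    (h : ∀ n, a ≤ n → n < b → S.τ k (q + n) = C n)
    (h1 : S.ζ k (q + a - 1) - q ≤ b) (h2 : b ≤ S.ζ k (q + a) - q) : S.V k (win C a b) := by
  refine ⟨a + q, b + q, ?_, ?_, win_congr q fun n h1 h2 => ?_⟩
  · rw [show a + q - 1 = q + a - 1 by ring]; omega
  · rw [show a + q = q + a by ring]; omega
  · rw [← h n h1 h2, add_comm]

lemma Sys.cross (S : Sys ι α) (k : ι) (q : ℤ) {a b : ℤ} (h : S.ζ k (q + a) - q ≤ b) :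
    ∃ i, a < i ∧ i ≤ b ∧ S.ζ k (q + i - 1) - q ≤ b ∧ b < S.ζ k (q + i) - q ∧
      ∀ n, b < S.ζ k (q + n) - q → i ≤ n := by
  obtain ⟨i, hi, hm⟩ := Int.exists_least_of_bdd (P := fun n => b < S.ζ k (q + n) - q)
    ⟨a, fun n hn => by
      by_contra hlt
      have := S.ζ_mono k (show q + n ≤ q + a by omega)
      omega⟩ ⟨b, by have := S.ζ_gt k (q + b); omega⟩
  refine ⟨i, ?_, hm b (by have := S.ζ_gt k (q + b); omega), ?_, hi, hm⟩
  · by_contra hlt
    have := S.ζ_mono k (show q + i ≤ q + a by omega)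
    omega
  · by_contra hlt
    have := hm (i - 1) (by rw [show q + (i - 1) = q + i - 1 by ring]; omega)
    omega

section

variable {S : Sys ι α} {R : ι → Prop} {G : List α → Prop} {M : ℕ} {C : ℤ → α} {p : ℕ}

lemma move_loop (hp : 0 < p) (hC : ∀ n, C (n + p) = C n) (hGM : ∀ v, G v → v.length ≤ M)
    {k : ι} {q a b : ℤ} (hal : ∀ n, S.τ k (q + n) = C n) (hR : R k) (hc : p ≤ S.c k)
    (hab : a ≤ b) (hG : G (win C a b)) (h1 : S.ζ k (q + a - 1) - q - p ≤ b)
    (h2 : b ≤ S.ζ k (q + a + p) - q) : Move S R G M C := by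
  have hl := hGM _ hG
  rw [win_length] at hl
  by_cases hb : b ≤ S.ζ k (q + a - 1) - q
  · refine ⟨a, b + p, p, {k}, hp, by omega, fun n _ _ => hC n, ⟨a, b, Or.inl ⟨rfl, by omega,
      by omega⟩, hG⟩, by simp, ?_, by simpa using hc, by simp; omega⟩
    intro k' hk'
    rw [Finset.mem_singleton.1 hk']
    refine ⟨hR, a, S.ζ k (q + a - 1) - q, Or.inl ⟨rfl, by omega, by omega⟩,
      S.vtx (fun n _ _ => hal n) le_rfl ?_⟩
    have := S.ζ_mono k (show q + a - 1 ≤ q + a by omega)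
    omega
  · obtain ⟨i, hi1, hi2, hi3, hi4, hi5⟩ := S.cross k q (a := a - 1) (b := b - 1)
      (by rw [show q + (a - 1) = q + a - 1 by ring]; omega)
    have hi6 := hi5 (a + p) (by rw [show q + (a + p) = q + a + p by ring]; omega)
    refine ⟨i, b + p, p, {k}, hp, by omega, fun n _ _ => hC n, ⟨a + p, b + p, Or.inr ⟨by omega,
      by omega, rfl⟩, ?_⟩, by simp, ?_, by simpa using hc, by simp; omega⟩
    · rw [← win_congr (f := C) (g := C) p fun n _ _ => (hC n).symm]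
      exact hG
    · intro k' hk'
      rw [Finset.mem_singleton.1 hk']
      exact ⟨hR, i, b, Or.inl ⟨rfl, by omega, by omega⟩,
        S.vtx (fun n _ _ => hal n) (by omega) (by omega)⟩

lemma move_strand (hG0 : G []) {i E : ℤ} (hiE : i < E) (Q : Finset ι) (hQ : Q.Nonempty)
    (h : ∀ k ∈ Q, R k ∧ ∃ a b, ((a = i ∧ i ≤ b ∧ b ≤ E) ∨ (i ≤ a ∧ a ≤ E ∧ b = E)) ∧
      S.V k (win C a b)) (hs : E - i ≤ ∑ k ∈ Q, S.c k) : Move S R G M C := by
  refine ⟨i, E, (E - i).toNat, Q, by omega, by omega, fun n _ _ => by omega,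
    ⟨E, E, Or.inr ⟨by omega, by omega, rfl⟩, by rwa [win_self]⟩, hQ, fun k hk => ?_, by omega,
    by omega⟩
  obtain ⟨h1, a, b, h2, h3⟩ := h k hk
  refine ⟨h1, a, b, ?_, h3⟩
  rcases h2 with h2 | h2
  · exact Or.inl ⟨h2.1, by omega, h2.2.2⟩
  · exact Or.inr ⟨h2.1, by omega, h2.2.2⟩

lemma all_low (hp : 0 < p) (hC : ∀ n, C (n + p) = C n) (hGM : ∀ v, G v → v.length ≤ M)
    (hno : ¬ Move S R G M C)
    {k : ι} {q a b : ℤ} (hal : ∀ n, S.τ k (q + n) = C n) (hR : R k) (hc : p ≤ S.c k)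
    (hab : a ≤ b) (hG : G (win C a b)) (h1 : S.ζ k (q + a - 1) - q - p ≤ b) (m : ℤ) :
    S.ζ k (q - m * p + a + p) - (q - m * p) < b := by
  have low : ∀ m : ℤ, S.ζ k (q - m * p + a - 1) - (q - m * p) - p ≤ b →
      S.ζ k (q - m * p + a + p) - (q - m * p) < b := by
    intro m hm
    by_contra hlt
    refine hno (move_loop hp hC hGM (q := q - m * p) (fun n => ?_) hR hc hab hG hm (by omega))
    rw [show q - m * p + n = q + (n + (-m) * p) by ring, hal, per_mul hC]
  have nat : ∀ m : ℕ, S.ζ k (q - (m : ℤ) * p + a - 1) - (q - (m : ℤ) * p) - p ≤ b := by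
    intro m
    induction m with
    | zero => simpa using h1
    | succ m ih =>
      have h2 := low m ih
      have h3 := S.ζ_mono k (show q - ((m + 1 : ℕ) : ℤ) * p + a - 1 ≤ q - (m : ℤ) * p + a + p by
        push_cast; nlinarith)
      push_cast at h3 ⊢
      linarith
  have hc0 : (1 : ℤ) ≤ S.c k := by exact_mod_cast S.c_pos k
  obtain ⟨t, ht⟩ : ∃ t : ℕ, (t : ℤ) = m + |m| * S.c k :=
    ⟨(m + |m| * S.c k).toNat, Int.toNat_of_nonneg (by
      have := neg_abs_le m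
      have := abs_nonneg m
      nlinarith)⟩
  have h4 := low t (nat t)
  have h5 := S.ζ_mul k (|m| * p) (q - (t : ℤ) * p + a + p)
  rw [show q - (t : ℤ) * p + a + p + |m| * p * S.c k = q - m * p + a + p by rw [ht]; ring] at h5
  rw [h5]
  rw [ht] at h4 ⊢
  linarith

/-- Aligned layers with no grounded window above their lowered copy. -/
def Free (S : Sys ι α) (G : List α → Prop) (C : ℤ → α) (p : ℕ) (k : ι) (q : ℤ) : Prop :=
  (∀ n, S.τ k (q + n) = C n) ∧
    ∀ a b, a ≤ b → G (win C a b) → b < S.ζ k (q + a - 1) - q - p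

lemma win_shift (hC : ∀ n, C (n + p) = C n) (m a b : ℤ) :
    win C (a + m * p) (b + m * p) = win C a b :=
  (win_congr (m * p) fun n _ _ => (per_mul hC m n).symm).symm

lemma Free.shift (hC : ∀ n, C (n + p) = C n) {k : ι} {q : ℤ} (h : Free S G C p k q) (m : ℤ) :
    Free S G C p k (q - m * p) := by
  refine ⟨fun n => ?_, fun a b hab hG => ?_⟩
  · rw [show q - m * p + n = q + (n + (-m) * p) by ring, h.1, per_mul hC]
  · have := h.2 (a + (-m) * p) (b + (-m) * p) (by omega) (by rwa [win_shift hC])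
    rw [show q + (a + (-m) * p) - 1 = q - m * p + a - 1 by ring] at this
    linarith

lemma Free.long (hG0 : G []) {k : ι} {q : ℤ} (h : Free S G C p k q) (n : ℤ) :
    n + p < S.ζ k (n - 1) := by
  have := h.2 (n - q) (n - q) le_rfl (by rwa [win_self])
  rw [show q + (n - q) - 1 = n - 1 by ring] at this
  omega

lemma Free.rem (hGA : ∀ k, R k ∨ ∀ v, S.V k v → G v) {k k' : ι} {q q' i : ℤ}
    (h : Free S G C p k q) (hal : ∀ n, S.τ k' (q' + n) = C n)
    (hi : S.ζ k (q + i) - q - p ≤ S.ζ k' (q' + i) - q') : R k' := by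
  refine (hGA k').resolve_right fun hv => ?_
  have h1 := S.ζ_mono k' (show q' + i - 1 ≤ q' + i by omega)
  have h2 := S.ζ_mono k (show q + i - 1 ≤ q + i by omega)
  have h3 := S.ζ_gt k' (q' + i)
  have := h.2 i _ (by omega) (hv _ (S.vtx (q := q') (a := i) (b := S.ζ k' (q' + i) - q')
    (fun n _ _ => hal n) (by omega) le_rfl))
  omega

lemma Free.gap (hp : 0 < p) (hC : ∀ n, C (n + p) = C n) (hGM : ∀ v, G v → v.length ≤ M)
    (hno : ¬ Move S R G M C) (hGA : ∀ k, R k ∨ ∀ v, S.V k v → G v)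
    (hmin : ∀ k q, (∀ n, S.τ k (q + n) = C n) → p ≤ S.c k) {k k' : ι} {q q' i : ℤ}
    (h : Free S G C p k q) (hal : ∀ n, S.τ k' (q' + n) = C n)
    (hi : S.ζ k (q + i) - q - p ≤ S.ζ k' (q' + i) - q') : Free S G C p k' q' := by
  refine ⟨hal, fun a b hab hG => ?_⟩
  by_contra hlt
  obtain ⟨m, hm1, hm2⟩ := exists_shift hp a i
  have h1 := all_low hp hC hGM hno hal (h.rem hGA hal hi) (hmin _ _ hal) hab hG (by omega) m
  have h2 := (h.shift hC m).2 a b hab hG
  have h3 := S.ζ_mono k' (show q' + i ≤ q' - m * p + a + p by omega)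
  have h4 := S.ζ_mono k (show q - m * p + a - 1 ≤ q + i by omega)
  omega

/-- A finite stretch of agreement of an ungrounded layer with `C` that holds a vertex. -/
def Good (S : Sys ι α) (R : ι → Prop) (C : ℤ → α) (k : ι) (q a b : ℤ) : Prop :=
  (∀ n, a < n → n < b → S.τ k (q + n) = C n) ∧ S.τ k (q + a) ≠ C a ∧ S.τ k (q + b) ≠ C b ∧
    S.ζ k (q + a) - q ≤ b ∧ R k

lemma Good.shift (hC : ∀ n, C (n + p) = C n) {k : ι} {q a b : ℤ} (h : Good S R C k q a b)
    (m : ℤ) : Good S R C k (q + m * p) (a - m * p) (b - m * p) := by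
  obtain ⟨h1, h2, h3, h4, h5⟩ := h
  have e : ∀ n, C (n - m * p) = C n := fun n => by
    rw [← per_mul hC m (n - m * p)]; congr 1; ring
  refine ⟨fun n hn hn' => ?_, ?_, ?_, ?_, h5⟩
  · rw [show q + m * p + n = q + (n + m * p) by ring, h1 _ (by omega) (by omega), per_mul hC]
  · rwa [show q + m * p + (a - m * p) = q + a by ring, e]
  · rwa [show q + m * p + (b - m * p) = q + b by ring, e]
  · rw [show q + m * p + (a - m * p) = q + a by ring]; omega

lemma Good.short (hp : 0 < p) (hC : ∀ n, C (n + p) = C n) {k : ι} {q a b : ℤ}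
    (h : Good S R C k q a b) : b ≤ a + p + S.c k := by
  by_contra hlt
  refine h.2.1 (fw C (fun n => S.τ k (q + n)) hp (S.c_pos k) hC
    (fun n => by rw [← add_assoc, S.τ_per]) (fun n h1 h2 => (h.1 n h1 h2).symm) (by omega)).symm

lemma Good.ne (hp : 0 < p) (hC : ∀ n, C (n + p) = C n) (hG0 : G []) {k k' : ι} {q q' a b : ℤ}
    (h : Good S R C k q a b) (h' : Free S G C p k' q') : k' ≠ k := by
  rintro rfl
  have h1 := h'.long hG0 (q + a + 1)
  rw [show q + a + 1 - 1 = q + a by ring] at h1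
  have h2 := h.2.2.2.1
  apply h.2.1
  have e1 := h'.1 (q + a - q')
  have e2 := h'.1 (q + a - q' + p)
  rw [hC, ← e1, show q' + (q + a - q' + p) = q + (a + p) by ring,
    show q' + (q + a - q') = q + a by ring, h.1 _ (by omega) (by omega), hC] at e2
  exact e2.symm

lemma good_of_host (hp : 0 < p) (hC : ∀ n, C (n + p) = C n) (hGM : ∀ v, G v → v.length ≤ M)
    (hno : ¬ Move S R G M C) (hGA : ∀ k, R k ∨ ∀ v, S.V k v → G v)
    (hmin : ∀ k q, (∀ n, S.τ k (q + n) = C n) → p ≤ S.c k) (x : ℤ → ℤ)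
    (hx1 : ∀ i, ∃ k q, Free S G C p k q ∧ S.ζ k (q + i) - q = x i)
    (hx2 : ∀ i k q, Free S G C p k q → x i ≤ S.ζ k (q + i) - q) (hxm : Monotone x)
    {i : ℤ} (hi : i < x i - p) {k : ι} {q : ℤ} (h : Host S C p i (x i - p) k q) :
    ∃ a b, Good S R C k q a b ∧ a < i ∧ x i - p ≤ b := by
  obtain ⟨h1, h2, h3, h4⟩ := h
  have hx : ∀ a b, a ≤ b → G (win C a b) → b < x (a - 1) - p := by
    intro a b hab hG
    obtain ⟨k', q', hf, e⟩ := hx1 (a - 1)
    have := hf.2 a b hab hG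
    rw [show q' + a - 1 = q' + (a - 1) by ring] at this
    omega
  have hna : ∃ n, S.τ k (q + n) ≠ C n := by
    by_contra hal
    push Not at hal
    obtain ⟨k', q', hf, e⟩ := hx1 i
    have := hx2 i k q (hf.gap hp hC hGM hno hGA hmin (i := i) hal (by omega))
    exact h3 ⟨by omega, fun n _ _ => hal n⟩
  obtain ⟨n0, hn0⟩ := hna
  have hall : ∀ t : ℤ, S.τ k (q + (n0 + t * (p * S.c k))) ≠ C (n0 + t * (p * S.c k)) := by
    intro t
    rw [show q + (n0 + t * (p * S.c k)) = q + n0 + (t * p) * S.c k by ring,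
      per_mul (S.τ_per k), show n0 + t * (p * S.c k) = n0 + (t * S.c k) * p by ring, per_mul hC]
    exact hn0
  have hpc : (1 : ℤ) ≤ p * S.c k := by exact_mod_cast Nat.mul_pos hp (S.c_pos k)
  obtain ⟨a, ⟨ha1, ha2⟩, ha3⟩ := Int.exists_greatest_of_bdd
    (P := fun a => a < i ∧ S.τ k (q + a) ≠ C a) ⟨i, fun z hz => hz.1.le⟩
    ⟨_, by
      have := le_abs_self (n0 - i)
      have := abs_nonneg (n0 - i)
      nlinarith, hall (-(|n0 - i| + 1))⟩
  obtain ⟨b, ⟨hb1, hb2⟩, hb3⟩ := Int.exists_least_of_bdd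
    (P := fun b => x i - p ≤ b ∧ S.τ k (q + b) ≠ C b) ⟨x i - p, fun z hz => hz.1⟩
    ⟨_, by
      have := le_abs_self (x i - p - n0)
      have := abs_nonneg (x i - p - n0)
      nlinarith, hall |x i - p - n0|⟩
  have hrun : ∀ n, a < n → n < b → S.τ k (q + n) = C n := by
    intro n hn hn'
    by_contra hne
    by_cases c1 : n < i
    · have := ha3 n ⟨c1, hne⟩; omega
    · by_cases c2 : n < x i - p
      · exact hne (h1 n (by omega) c2)
      · have := hb3 n ⟨by omega, hne⟩; omega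
  have hmono := S.ζ_mono k (show q + a ≤ q + i by omega)
  have hunc : S.ζ k (q + a) - q ≤ b := by
    by_contra hlt
    by_cases c : b < x i - p + p
    · exact h4 a ha1 ⟨ha2, fun n hn hn' => hrun n hn (by omega), b, hb1, c, by omega, hb2⟩
    · exact h3 ⟨by omega, fun n hn hn' => hrun n (by omega) (by omega)⟩
  refine ⟨a, b, ⟨hrun, ha2, hb2, hunc, (hGA k).resolve_right fun hv => ?_⟩, ha1, hb1⟩
  by_cases c : S.ζ k (q + i) - q ≤ b
  · have h5 := S.ζ_mono k (show q + i - 1 ≤ q + i by omega)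
    have := hx i _ (by omega) (hv _ (S.vtx (q := q) (a := i) (b := S.ζ k (q + i) - q)
      (fun n _ _ => hrun n (by omega) (by omega)) (by omega) le_rfl))
    have := hxm (show i - 1 ≤ i by omega)
    omega
  · obtain ⟨j, hj1, hj2, hj3, hj4, hj5⟩ := S.cross k q hunc
    have := hj5 i (by omega)
    have := hx j b hj2 (hv _ (S.vtx (q := q) (fun n _ _ => hrun n (by omega) (by omega)) hj3
      hj4.le))
    have := hxm (show j - 1 ≤ i by omega)
    omega

end

theorem core [DecidableEq ι] (S : Sys ι α) (R : ι → Prop) (G : List α → Prop) (M N : ℕ)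
    (hN : ∀ k, S.c k ≤ N) (hG0 : G []) (hGM : ∀ v, G v → v.length ≤ M)
    (hGA : ∀ k, R k ∨ ∀ v, S.V k v → G v) (k0 : ι) (j0 : ℤ) (hk0 : R k0)
    (hmax : ∀ v, G v → win (S.τ k0) j0 (S.ζ k0 j0) <:+: v →
      v.length ≤ (S.ζ k0 j0 - j0).toNat)
    (hhost : ∀ p : ℕ, 0 < p → (∀ n, S.τ k0 (n + p) = S.τ k0 n) → j0 + p ≤ S.ζ k0 j0 →
      ∀ i e, j0 ≤ i → i < e → e ≤ S.ζ k0 j0 → ∃ k q, Host S (S.τ k0) p i e k q) :
    Move S R G M (S.τ k0) := by
  classical
  by_contra hno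
  set C := S.τ k0 with hCdef
  have hex : ∃ p : ℕ, 0 < p ∧ ∀ n, C (n + p) = C n := ⟨_, S.c_pos k0, S.τ_per k0⟩
  obtain ⟨hp, hC⟩ := Nat.find_spec hex
  have hmin : ∀ k q, (∀ n, S.τ k (q + n) = C n) → Nat.find hex ≤ S.c k := fun k q hal =>
    Nat.find_min' hex ⟨S.c_pos k, fun n => by rw [← hal, ← hal, ← add_assoc, S.τ_per]⟩
  generalize Nat.find hex = p at hp hC hmin
  have hal0 : ∀ n, S.τ k0 (0 + n) = C n := fun n => by rw [zero_add]
  have hF0 : Free S G C p k0 0 := by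
    refine ⟨hal0, fun a b hab hG => ?_⟩
    by_contra hlt
    obtain ⟨m, hm1, hm2⟩ := exists_shift hp a j0
    have h1 := all_low hp hC hGM hno hal0 hk0 (hmin _ _ hal0) hab hG (by omega) m
    have h3 := S.ζ_mono k0 (show j0 ≤ 0 - m * p + a + p by omega)
    have h4 := S.ζ_gt k0 j0
    have h5 := hmax _ hG (by
      rw [← win_shift hC m]
      exact win_infix C hm1 (by omega) (by omega))
    rw [win_length] at h5
    omega
  have hxe : ∀ i, ∃ v, (∃ k q, Free S G C p k q ∧ S.ζ k (q + i) - q = v) ∧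
      ∀ z, (∃ k q, Free S G C p k q ∧ S.ζ k (q + i) - q = z) → v ≤ z := fun i =>
    Int.exists_least_of_bdd ⟨i, by
      rintro z ⟨k, q, -, rfl⟩
      have := S.ζ_gt k (q + i)
      omega⟩ ⟨_, k0, 0, hF0, rfl⟩
  choose x hx1 hx2' using hxe
  have hx2 : ∀ i k q, Free S G C p k q → x i ≤ S.ζ k (q + i) - q :=
    fun i k q h => hx2' i _ ⟨k, q, h, rfl⟩
  have hxm : Monotone x := by
    intro i j hij
    obtain ⟨k, q, hf, e⟩ := hx1 j
    have := hx2 i k q hf
    have := S.ζ_mono k (show q + i ≤ q + j by omega)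
    omega
  have hxs : ∀ i m : ℤ, x (i + m * p) = x i + m * p := by
    have le : ∀ i m : ℤ, x (i + m * p) ≤ x i + m * p := by
      intro i m
      obtain ⟨k, q, hf, e⟩ := hx1 i
      have := hx2 (i + m * p) k _ (hf.shift hC m)
      rw [show q - m * p + (i + m * p) = q + i by ring] at this
      omega
    intro i m
    have h1 := le i m
    have h2 := le (i + m * p) (-m)
    rw [show i + m * p + -m * p = i by ring] at h2
    linarith
  have hxl : ∀ i, i + 1 + p < x i := by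
    intro i
    obtain ⟨k, q, hf, e⟩ := hx1 i
    have := hf.long hG0 (q + i + 1)
    rw [show q + i + 1 - 1 = q + i by ring] at this
    omega
  have hxv : ∀ i, ∃ k q, Free S G C p k q ∧ R k ∧ p ≤ S.c k ∧ S.V k (win C (i + 1) (x i)) := by
    intro i
    obtain ⟨k, q, hf, e⟩ := hx1 i
    refine ⟨k, q, hf, hf.rem hGA hf.1 (i := 0) (by omega), hmin _ _ hf.1,
      S.vtx (q := q) (fun n _ _ => hf.1 n) ?_ ?_⟩
    · rw [show q + (i + 1) - 1 = q + i by ring]; omega
    · have := S.ζ_mono k (show q + i ≤ q + (i + 1) by omega)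
      omega
  have hgood : ∀ i, ∃ k q a b, Good S R C k q a b ∧ a < i ∧ x i - p ≤ b := by
    intro i
    obtain ⟨m, hm1, hm2⟩ := exists_shift hp j0 i
    have h1 := hxl (i + m * p)
    have h2 := hF0.long hG0 (j0 + 1)
    rw [show j0 + 1 - 1 = j0 by ring] at h2
    have h3 := hxs (i + m * p) (-1)
    have h4 := hx2 (i + m * p + -1 * p) k0 0 hF0
    have h5 := S.ζ_mono k0 (show 0 + (i + m * p + -1 * p) ≤ j0 by omega)
    obtain ⟨k, q, hh⟩ := hhost p hp hC (by omega) (i + m * p) (x (i + m * p) - p) hm1 (by omega)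
      (by omega)
    obtain ⟨a, b, hg, ha, hb⟩ := good_of_host hp hC hGM hno hGA hmin x hx1 hx2 hxm (by omega) hh
    refine ⟨k, _, _, _, hg.shift hC m, by omega, ?_⟩
    rw [hxs] at hb
    omega
  obtain ⟨L, ⟨kz, qz, κ, bz, hz, rfl⟩, hL⟩ := Int.exists_greatest_of_bdd
    (P := fun L => ∃ k q a b, Good S R C k q a b ∧ b - a = L) ⟨p + N, by
      rintro z ⟨k, q, a, b, hg, rfl⟩
      have := hg.short hp hC
      have := hN k
      omega⟩ (by
      obtain ⟨k, q, a, b, hg, -⟩ := hgood 0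
      exact ⟨_, k, q, a, b, hg, rfl⟩)
  obtain ⟨kg, qg, ag, bg, hg, hag, hbg⟩ := hgood κ
  have hlt := hL _ ⟨kg, qg, ag, bg, hg, rfl⟩
  obtain ⟨kx, qx, hfx, hRx, hcx, hVx⟩ := hxv κ
  have hzs := hz.short hp hC
  have hgs := hg.short hp hC
  have hκ := hxl κ
  have hzu := hz.2.2.2.1
  have hzg := S.ζ_gt kz (qz + κ)
  have hVz : S.V kz (win C (κ + 1) (S.ζ kz (qz + κ) - qz)) := by
    refine S.vtx (q := qz) (fun n _ _ => hz.1 n (by omega) (by omega)) ?_ ?_
    · rw [show qz + (κ + 1) - 1 = qz + κ by ring]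
    · have := S.ζ_mono kz (show qz + κ ≤ qz + (κ + 1) by omega)
      omega
  have nxz := hz.ne hp hC hG0 hfx
  apply hno
  by_cases cA : x κ ≤ S.ζ kz (qz + κ) - qz
  · refine move_strand hG0 (i := κ + 1) (E := S.ζ kz (qz + κ) - qz) (by omega) {kx, kz}
      (by simp) (fun k hk => ?_) (by rw [Finset.sum_pair nxz]; push_cast; omega)
    rcases Finset.mem_insert.1 hk with rfl | hk
    · exact ⟨hRx, _, _, Or.inl ⟨rfl, by omega, cA⟩, hVx⟩
    · rw [Finset.mem_singleton.1 hk]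
      exact ⟨hz.2.2.2.2, _, _, Or.inl ⟨rfl, by omega, le_rfl⟩, hVz⟩
  obtain ⟨j, hj1, hj2, hj3, hj4, -⟩ := S.cross kg qg hg.2.2.2.1
  have hVg : S.V kg (win C j bg) :=
    S.vtx (q := qg) (fun n _ _ => hg.1 n (by omega) (by omega)) hj3 hj4.le
  by_cases cB : x (j - 1) ≤ bg
  · obtain ⟨ky, qy, hfy, hRy, hcy, hVy⟩ := hxv (j - 1)
    rw [show j - 1 + 1 = j by ring] at hVy
    have := hxl (j - 1)
    refine move_strand hG0 (i := j) (E := bg) (by omega) {ky, kg}
      (by simp) (fun k hk => ?_) (by rw [Finset.sum_pair (hg.ne hp hC hG0 hfy)]; push_cast; omega)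
    rcases Finset.mem_insert.1 hk with rfl | hk
    · exact ⟨hRy, _, _, Or.inl ⟨rfl, by omega, cB⟩, hVy⟩
    · rw [Finset.mem_singleton.1 hk]
      exact ⟨hg.2.2.2.2, _, _, Or.inl ⟨rfl, hj2, le_rfl⟩, hVg⟩
  have hj : κ + 1 < j + p := by
    by_contra hc
    have h1 := hxs κ (-1)
    have h2 := hxm (show j - 1 ≤ κ + -1 * p by omega)
    omega
  have hVg' : S.V kg (win C (j + p) (bg + p)) := by
    rw [← win_congr (f := C) (g := C) p fun n _ _ => (hC n).symm]
    exact hVg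
  have nxg := hg.ne hp hC hG0 hfx
  have hagree : ∀ n, κ < n → n < bg → S.τ kz (qz + n) = S.τ kg (qg + n) := fun n h1 h2 => by
    rw [hz.1 n h1 (by omega), hg.1 n (by omega) h2]
  have hdiff : S.τ kz (qz + κ) ≠ S.τ kg (qg + κ) := by
    rw [hg.1 κ hag (by omega)]
    exact hz.2.1
  refine move_strand hG0 (i := κ + 1) (E := bg + p) (by omega) {kx, kz, kg}
    (by simp) (fun k hk => ?_) ?_
  · rcases Finset.mem_insert.1 hk with rfl | hk
    · exact ⟨hRx, _, _, Or.inl ⟨rfl, by omega, by omega⟩, hVx⟩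
    rcases Finset.mem_insert.1 hk with rfl | hk
    · exact ⟨hz.2.2.2.2, _, _, Or.inl ⟨rfl, by omega, by omega⟩, hVz⟩
    · rw [Finset.mem_singleton.1 hk]
      exact ⟨hg.2.2.2.2, _, _, Or.inr ⟨by omega, by omega, rfl⟩, hVg'⟩
  · by_cases e : kz = kg
    · subst e
      have : bg ≤ κ + S.c kz := by
        by_contra hc
        have h0 := S.c_pos kz
        apply hdiff
        rw [← S.τ_per kz (qz + κ), ← S.τ_per kz (qg + κ), add_assoc, add_assoc]
        exact hagree _ (by omega) (by omega)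
      rw [Finset.pair_eq_singleton, Finset.sum_pair nxz]
      push_cast
      omega
    · have : bg ≤ κ + S.c kz + S.c kg := by
        by_contra hc
        exact hdiff (fw (fun n => S.τ kz (qz + n)) (fun n => S.τ kg (qg + n)) (S.c_pos kz)
          (S.c_pos kg) (fun n => by rw [← add_assoc, S.τ_per])
          (fun n => by rw [← add_assoc, S.τ_per]) hagree (by omega))
      rw [Finset.sum_insert (by simp [nxz, nxg]), Finset.sum_pair e]
      push_cast
      omega

end Vale.Agent.P333
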