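import Vale.Agent.P333.Alg

/-! Forced occurrence counts are lower bounds. -/

namespace Vale.Agent.P333

set_option linter.unusedSectionVars false

variable {α : Type} [DecidableEq α] [Inhabited α]

@[simp] lemma pre_iff {a b : List α} : pre a b = true ↔ a <+: b := by
  simp only [pre, decide_eq_true_eq]
  rw [List.prefix_iff_eq_take, eq_comm]

def InV (S : List (List α)) (u : List α) : Prop := ∃ s ∈ S, u <:+: s

def Sup (S : List (List α)) (T : List α) : Prop := ∀ s ∈ S, s <:+: T

def sufs (T : List α) : List (List α) := (List.range T.length).map fun j => T.drop j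

lemma InV.mono {S : List (List α)} {u v : List α} (h : InV S v) (huv : u <:+: v) : InV S u :=
  let ⟨s, hs, h'⟩ := h; ⟨s, hs, huv.trans h'⟩

lemma countP_range (n : ℕ) (P : ℕ → Bool) :
    (List.range n).countP P = ((Finset.range n).filter fun j => P j = true).card := by
  induction n with
  | zero => simp
  | succ n ih =>
    rw [List.range_succ, List.countP_append, ih, Finset.range_add_one, Finset.filter_insert]
    by_cases h : P n = true
    · rw [if_pos h, Finset.card_insert_of_notMem (by simp)]; simp [h]
    · rw [if_neg h]; simp [h]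

lemma countP_sufs (T : List α) (P : List α → Bool) :
    (sufs T).countP P = ((Finset.range T.length).filter fun j => P (T.drop j) = true).card := by
  rw [sufs, List.countP_map, countP_range]
  rfl

lemma length_flatMap_range {β : Type} (B : ℕ) (f : ℕ → List β) :
    ((List.range B).flatMap f).length = ∑ o ∈ Finset.range B, (f o).length := by
  induction B with
  | zero => simp
  | succ n ih => rw [List.range_succ, List.flatMap_append, List.length_append, ih,
      Finset.sum_range_succ]; simp

lemma countP_split {β : Type} (P r : β → Bool) (X : List β) :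
    X.countP P = (X.filter r).countP P + (X.filter fun x => !r x).countP P := by
  induction X with
  | nil => simp
  | cons x X ih =>
    cases h : r x <;> simp [h, List.countP_cons, ih] <;> omega

theorem laminar (P Q : List α → Bool) : ∀ (n : ℕ) (R : List α → Prop) (X Y : List (List α)),
    X.length ≤ n → (∀ r, R r → cnt X r ≤ cnt Y r) →
    (∀ x ∈ X, P x = true → ∃ r, R r ∧ r <+: x) → (∀ r, R r → ∀ y, r <+: y → Q y = true) →
    X.countP P ≤ Y.countP Q := by
  classical
  intro n
  induction n with
  | zero =>
    intro R X Y hn _ _ _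
    rw [List.length_eq_zero_iff.1 (Nat.le_zero.1 hn)]
    simp
  | succ n ih =>
    intro R X Y hn h1 h2 h3
    by_cases hex : ∃ m, ∃ r, R r ∧ r.length = m ∧ ∃ x ∈ X, r <+: x
    swap
    · rw [List.countP_eq_zero.2]
      · exact Nat.zero_le _
      · intro x hx hP
        obtain ⟨r, hr, hrx⟩ := h2 x hx hP
        exact hex ⟨_, r, hr, rfl, x, hx, hrx⟩
    obtain ⟨r0, hr0, hl, x0, hx0, hrx0⟩ := Nat.find_spec hex
    have hmin : ∀ r, R r → (∃ x ∈ X, r <+: x) → r0.length ≤ r.length := fun r hr hx =>
      hl ▸ Nat.find_min' hex ⟨r, hr, rfl, hx⟩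
    rw [countP_split P (fun x => pre r0 x) X, countP_split Q (fun x => pre r0 x) Y]
    have e1 : (Y.filter fun x => pre r0 x).countP Q = cnt Y r0 := by
      rw [cnt, List.countP_eq_length_filter (l := Y), List.countP_eq_length]
      intro y hy
      exact h3 r0 hr0 y (pre_iff.1 (List.mem_filter.1 hy).2)
    have e2 : (X.filter fun x => pre r0 x).countP P ≤ cnt X r0 := by
      rw [cnt, List.countP_eq_length_filter (l := X)]
      exact List.countP_le_length
    have e3 := h1 r0 hr0
    have e4 := ih (fun r => R r ∧ ¬ r <+: r0 ∧ ¬ r0 <+: r) (X.filter fun x => !pre r0 x)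
      (Y.filter fun x => !pre r0 x) ?_ ?_ ?_ (fun r hr => h3 r hr.1)
    · omega
    · have : (X.filter fun x => !pre r0 x).length < X.length :=
        List.length_filter_lt_length_iff_exists.2 ⟨x0, hx0, by simp [hrx0]⟩
      omega
    · rintro r ⟨hr, n1, n2⟩
      have a1 : cnt (X.filter fun x => !pre r0 x) r ≤ cnt X r :=
        List.Sublist.countP_le List.filter_sublist
      have a2 : cnt (Y.filter fun x => !pre r0 x) r = cnt Y r := by
        rw [cnt, cnt, List.countP_filter]
        refine List.countP_congr fun y _ => ?_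
        simp only [Bool.and_eq_true, pre_iff, Bool.not_eq_true', and_iff_left_iff_imp]
        intro hy
        by_contra hc
        have hc' : r0 <+: y := pre_iff.1 (by simpa using hc)
        rcases List.prefix_or_prefix_of_prefix hy hc' with h | h
        · exact n1 h
        · exact n2 h
      have := h1 r hr
      omega
    · intro x hx hP
      obtain ⟨hx1, hx2⟩ := List.mem_filter.1 hx
      have hx3 : ¬ r0 <+: x := fun h => by simp [pre_iff.2 h] at hx2
      obtain ⟨r, hr, hrx⟩ := h2 x hx1 hP
      refine ⟨r, ⟨hr, fun h => hx3 ?_, fun h => hx3 (h.trans hrx)⟩, hrx⟩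
      rwa [← h.eq_of_length_le (hmin r hr ⟨x, hx1, hrx⟩)]

/-- Periodic extension of a word to the integers. -/
def cz (w : List α) (p : ℕ) (z : ℤ) : α := w.getD (z % p).toNat default

lemma cz_per (w : List α) (p : ℕ) (z : ℤ) : cz w p (z + p) = cz w p z := by simp [cz]

lemma cz_mul (w : List α) (p : ℕ) (z m : ℤ) : cz w p (z + m * p) = cz w p z := by simp [cz]

lemma cz_nat (w : List α) (p k : ℕ) : cz w p k = w.getD (k % p) default := by
  unfold cz
  congr 1

lemma ext_length (w : List α) (p j n : ℕ) : (ext w p j n).length = n := by simp [ext]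

lemma ext_get (w : List α) (p j : ℕ) {n k : ℕ} (h : k < n) :
    (ext w p j n)[k]? = some (cz w p (j + k)) := by
  rw [ext, List.getElem?_map, List.getElem?_range h, ← Nat.cast_add, cz_nat]
  rfl

lemma pre_iff_get {a b : List α} : a <+: b ↔ ∀ k < a.length, b[k]? = a[k]? := by
  constructor
  · rintro ⟨t, rfl⟩ k hk
    exact List.getElem?_append_left hk
  · intro h
    rw [List.prefix_iff_eq_take]
    refine List.ext_getElem? fun k => ?_
    by_cases hk : k < a.length
    · rw [List.getElem?_take_of_lt hk, h k hk]
    · rw [List.getElem?_eq_none (by omega), List.getElem?_eq_none (by simp; omega)]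

lemma ext_pre {w W : List α} {p j n : ℕ} :
    ext w p j n <+: W ↔ ∀ k < n, W[k]? = some (cz w p (j + k)) := by
  rw [pre_iff_get, ext_length]
  exact forall₂_congr fun k hk => by rw [ext_get w p j hk]

def Out (C : ℤ → α) (p : ℕ) (i : ℤ) (n : ℕ) (W : List α) : Prop :=
  ∀ k < n + p, W[k]? = some (C (i + k))

def Cert (C : ℤ → α) (p : ℕ) (i : ℤ) (n o : ℕ) (W : List α) : Prop :=
  W[0]? ≠ some (C (i - (o + 1))) ∧
    (∀ k, 1 ≤ k → k < o + 1 + n → W[k]? = some (C (i - (o + 1) + k))) ∧
    ∃ k, o + 1 + n ≤ k ∧ k < o + 1 + n + p ∧ k < W.length ∧ W[k]? ≠ some (C (i - (o + 1) + k))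

lemma outB_iff {w W : List α} {p i n : ℕ} : outB w p i n W = true ↔ Out (cz w p) p i n W := by
  rw [outB, pre_iff, ext_pre]; rfl

lemma certB_iff {w W : List α} {p i n o : ℕ} (hp : 0 < p) :
    certB w p i n o W = true ↔ Cert (cz w p) p i n o W := by
  have e : ∀ z : ℤ, cz w p (((i + (o + 1) * (p - 1) : ℕ) : ℤ) + z) = cz w p (i - (o + 1) + z) := by
    intro z
    rw [← cz_mul w p (i - (o + 1) + z) (o + 1)]
    congr 1
    obtain ⟨p', rfl⟩ : ∃ p', p = p' + 1 := ⟨p - 1, by omega⟩
    simp only [Nat.add_sub_cancel]
    push_cast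
    ring
  simp only [certB, Bool.and_eq_true, Bool.not_eq_true', ← Bool.not_eq_true, pre_iff, ext_pre,
    Cert]
  refine and_congr ?_ (and_congr ?_ ?_)
  · refine not_congr ?_
    constructor
    · intro h
      have := h 0 one_pos
      rwa [e, Nat.cast_zero, add_zero] at this
    · intro h k hk
      obtain rfl : k = 0 := by omega
      rwa [e, Nat.cast_zero, add_zero]
  · constructor
    · intro h k h1 h2
      have := h (k - 1) (by omega)
      rw [List.getElem?_tail, Nat.sub_add_cancel h1, Nat.cast_add, add_assoc, e] at this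
      rw [this]
      congr 2
      omega
    · intro h k hk
      rw [List.getElem?_tail, h (k + 1) (by omega) (by omega), Nat.cast_add (_ + _), add_assoc, e]
      congr 2
      push_cast
      ring
  · rw [pre_iff_get]
    push Not
    simp only [List.length_take, List.length_drop]
    constructor
    · rintro ⟨k, hk, hne⟩
      refine ⟨o + 1 + n + k, by omega, by omega, by omega, fun h => hne ?_⟩
      rw [ext_get _ _ _ (by omega), List.getElem?_take_of_lt (by omega), List.getElem?_drop, h]
      congr 2
      push_cast
      ring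
    · rintro ⟨k, h1, h2, h3, hne⟩
      refine ⟨k - (o + 1 + n), by omega, fun h => hne ?_⟩
      rw [ext_get _ _ _ (by omega), List.getElem?_take_of_lt (by omega), List.getElem?_drop,
        Nat.add_sub_cancel' h1] at h
      rw [← h]
      congr 2
      push_cast [h1]
      ring

lemma get_of_pre {r y : List α} (h : r <+: y) {k : ℕ} {a : α} (hk : r[k]? = some a) :
    y[k]? = some a := by
  rw [pre_iff_get.1 h k (List.getElem?_eq_some_iff.1 hk).1, hk]

lemma isInf_iff {w s : List α} : isInf w s = true ↔ w <:+: s := by
  simp only [isInf, List.any_eq_true, List.mem_range, pre_iff]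
  constructor
  · rintro ⟨i, -, h⟩
    exact h.isInfix.trans (List.drop_suffix i s).isInfix
  · rintro ⟨a, b, rfl⟩
    exact ⟨a.length, by simp, by simp⟩

lemma isMax_iff {S : List (List α)} {w : List α} :
    isMax S w = true ↔ ∀ s ∈ S, w <:+: s → s.length ≤ w.length := by
  simp only [isMax, List.all_eq_true, Bool.or_eq_true, Bool.not_eq_true', decide_eq_true_eq,
    ← isInf_iff]
  exact forall₂_congr fun s _ => by cases isInf w s <;> simp

lemma infix_pos {u T : List α} (h : u <:+: T) : ∃ j, j + u.length ≤ T.length ∧ u <+: T.drop j := by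
  obtain ⟨a, b, rfl⟩ := h
  exact ⟨a.length, by simp, by simp⟩

/-- The rule is valid in every superstring. -/
theorem rule_valid {S D : List (List α)} {T w u : List α} {C : ℤ → α} {p i B : ℕ}
    (hT : Sup S T) (hD : ∀ W ∈ D, InV S W) (ih : ∀ r, r ≠ [] → cnt D r ≤ cnt (sufs T) r)
    (hp : 0 < p) (hC : ∀ z m : ℤ, C (z + m * p) = C z) (hw : w ∈ S)
    (hmax : ∀ s ∈ S, w <:+: s → s.length ≤ w.length)
    (hwC : ∀ k < w.length, w[k]? = some (C k)) (hu : u ≠ []) (hui : u <+: w.drop i)
    (P : List α → Bool) (hP : ∀ W, P W = true → Out C p i u.length W)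
    (Q : ℕ → List α → Bool) (hQ : ∀ o W, Q o W = true → Cert C p i u.length o W) :
    1 + D.countP P + ∑ o ∈ Finset.range B, D.countP (Q o) ≤ cnt (sufs T) u := by
  classical
  set n := u.length with hn
  have hn0 : 0 < n := List.length_pos_iff.2 hu
  have hin : i + n ≤ w.length := by
    have := hui.length_le
    rw [List.length_drop] at this
    omega
  have huC : ∀ Y : List α, (∀ k < n, Y[k]? = some (C (i + k))) → u <+: Y := by
    intro Y h
    rw [pre_iff_get]
    intro k hk
    rw [h k hk, ← pre_iff_get.1 hui k hk, List.getElem?_drop, hwC _ (by omega)]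
    push_cast
    rfl
  obtain ⟨jw, hjw, hwT⟩ := infix_pos (hT w hw)
  have hTw : ∀ k < w.length, T[jw + k]? = some (C k) := fun k hk => by
    rw [← List.getElem?_drop]; exact get_of_pre hwT (hwC k hk)
  have hex : ∃ k, ¬ ∀ m < i + n + (k + 1) * p, T[jw + m]? = some (C m) := by
    refine ⟨T.length, fun h => ?_⟩
    have := h T.length (by nlinarith)
    rw [List.getElem?_eq_none (by omega)] at this
    cases this
  obtain ⟨ks, hk1, hk2⟩ : ∃ ks, (∀ m < i + n + ks * p, T[jw + m]? = some (C m)) ∧
      ¬ ∀ m < i + n + (ks + 1) * p, T[jw + m]? = some (C m) := by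
    refine ⟨Nat.find hex, ?_, Nat.find_spec hex⟩
    rcases h : Nat.find hex with _ | k
    · intro m hm
      exact hTw m (by omega)
    · have := Nat.find_min hex (m := k) (by omega)
      rwa [not_not] at this
  generalize hs : ks * p = s at hk1
  rw [add_mul, hs, one_mul] at hk2
  have hCs : ∀ z : ℤ, C (z + s) = C z := fun z => by
    rw [← hs]; push_cast; exact hC z ks
  let O := (Finset.range T.length).filter fun j => Out C p i n (T.drop j)
  let Co := fun o => (Finset.range T.length).filter fun j =>
    ∃ r, (InV S r ∧ Cert C p i n o r) ∧ r <+: T.drop j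
  have h1 : D.countP P ≤ O.card := by
    have := laminar P (fun y => decide (Out C p i n y)) _ (fun r => Out C p i n r) D (sufs T)
      le_rfl (fun r hr => ih r (by
        rintro rfl
        have := hr 0 (by omega)
        simp at this)) (fun x _ hx => ⟨x, hP x hx, List.prefix_refl _⟩)
      (fun r hr y hy => decide_eq_true fun k hk => get_of_pre hy (hr k hk))
    rw [countP_sufs] at this
    simpa [O] using this
  have h2 : ∀ o, D.countP (Q o) ≤ (Co o).card := by
    intro o
    have := laminar (Q o) (fun y => decide (∃ r, (InV S r ∧ Cert C p i n o r) ∧ r <+: y)) _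
      (fun r => InV S r ∧ Cert C p i n o r) D (sufs T)
      le_rfl (fun r hr => ih r (by
        rintro rfl
        obtain ⟨k, -, -, h, -⟩ := hr.2.2.2
        simp at h)) (fun x hx hx' => ⟨x, ⟨hD x hx, hQ o x hx'⟩, List.prefix_refl _⟩)
      (fun r hr y hy => decide_eq_true ⟨r, hr, hy⟩)
    rw [countP_sufs] at this
    simpa only [Co, decide_eq_true_eq] using this
  have hCo : ∀ o j, j ∈ Co o → T[j]? ≠ some (C (i - (o + 1))) ∧
      (∀ k, 1 ≤ k → k < o + 1 + n → T[j + k]? = some (C (i - (o + 1) + k))) ∧
      ∃ k, o + 1 + n ≤ k ∧ k < o + 1 + n + p ∧ T[j + k]? ≠ some (C (i - (o + 1) + k)) ∧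
        InV S ((T.drop j).take (k + 1)) ∧ j + k < T.length := by
    intro o j hj
    obtain ⟨r, ⟨hV, c1, c2, k, k1, k2, k3, k4⟩, hr⟩ := (Finset.mem_filter.1 hj).2
    have hg := pre_iff_get.1 hr
    refine ⟨?_, fun k h1 h2 => ?_, k, k1, k2, ?_, hV.mono (List.IsPrefix.isInfix ?_), ?_⟩
    · rwa [← hg 0 (by omega), List.getElem?_drop] at c1
    · rw [← List.getElem?_drop]; exact get_of_pre hr (c2 k h1 h2)
    · rwa [← hg k k3, List.getElem?_drop] at k4
    · exact List.prefix_of_prefix_length_le (List.take_prefix _ _) hr (by simp; omega)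
    · have := hr.length_le
      rw [List.length_drop] at this
      omega
  let Im := (Finset.range B).biUnion fun o => (Co o).image fun j => j + (o + 1)
  have h3 : Im.card = ∑ o ∈ Finset.range B, (Co o).card := by
    rw [Finset.card_biUnion]
    · exact Finset.sum_congr rfl fun o _ =>
        Finset.card_image_of_injective _ (add_left_injective _)
    · have key : ∀ o o' j j', o < o' → j ∈ Co o → j' ∈ Co o' → j + (o + 1) ≠ j' + (o' + 1) := by
        intro o o' j j' ho hj hj' e
        apply (hCo o j hj).1
        have := (hCo o' j' hj').2.1 (o' - o) (by omega) (by omega)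
        rw [show j' + (o' - o) = j by omega] at this
        rw [this]
        congr 2
        push_cast [ho.le]
        ring
      intro o _ o' _ hne
      rw [Function.onFun, Finset.disjoint_left]
      intro x hx hx'
      obtain ⟨j, hj, rfl⟩ := Finset.mem_image.1 hx
      obtain ⟨j', hj', e⟩ := Finset.mem_image.1 hx'
      rcases lt_or_gt_of_ne hne with h | h
      · exact key o o' j j' h hj hj' e.symm
      · exact key o' o j' j h hj' hj e
  have h4 : Disjoint O Im := by
    rw [Finset.disjoint_left]
    intro x hx hx'
    obtain ⟨o, -, hx'⟩ := Finset.mem_biUnion.1 hx'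
    obtain ⟨j, hj, rfl⟩ := Finset.mem_image.1 hx'
    obtain ⟨k, k1, k2, k3, -⟩ := (hCo o j hj).2.2
    apply k3
    have := (Finset.mem_filter.1 hx).2 (k - (o + 1)) (by omega)
    rw [List.getElem?_drop, show j + (o + 1) + (k - (o + 1)) = j + k by omega] at this
    rw [this]
    congr 2
    push_cast [show o + 1 ≤ k by omega]
    ring
  have h5 : jw + i + s ∉ O ∪ Im := by
    intro hx
    rcases Finset.mem_union.1 hx with hx | hx
    · apply hk2
      intro m hm
      by_cases c : m < i + n + s
      · exact hk1 m c
      · have := (Finset.mem_filter.1 hx).2 (m - (i + s)) (by omega)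
        rw [List.getElem?_drop, show jw + i + s + (m - (i + s)) = jw + m by omega] at this
        rw [this, ← hCs]
        congr 2
        push_cast [show i + s ≤ m by omega]
        ring
    · obtain ⟨o, -, hx'⟩ := Finset.mem_biUnion.1 hx
      obtain ⟨j, hj, e⟩ := Finset.mem_image.1 hx'
      obtain ⟨c1, -, k, k1, k2, k3, ⟨s', hs', hinf⟩, k5⟩ := hCo o j hj
      have a1 : j < jw := by
        by_contra hc
        apply c1
        have := hk1 (j - jw) (by omega)
        rw [show jw + (j - jw) = j by omega] at this
        rw [this, ← hCs (i - (o + 1))]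
        congr 2
        omega
      have a2 : jw + w.length ≤ j + k := by
        by_contra hc
        apply k3
        have := hTw (j + k - jw) (by omega)
        rw [show jw + (j + k - jw) = j + k by omega] at this
        rw [this, ← hCs (i - (o + 1) + k)]
        congr 2
        omega
      have a3 : w <+: ((T.drop j).take (k + 1)).drop (jw - j) := by
        rw [pre_iff_get]
        intro m hm
        rw [List.getElem?_drop, List.getElem?_take_of_lt (by omega), List.getElem?_drop,
          show j + (jw - j + m) = jw + m by omega, hTw m hm, hwC m hm]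
      have a4 := hmax s' hs' ((a3.isInfix.trans (List.drop_suffix _ _).isInfix).trans hinf)
      have a5 := hinf.length_le
      simp only [List.length_take, List.length_drop] at a5
      omega
  have h6 : insert (jw + i + s) (O ∪ Im) ⊆
      (Finset.range T.length).filter fun j => pre u (T.drop j) = true := by
    have fin : ∀ j, (∀ k < n, T[j + k]? = some (C (i + k))) →
        j ∈ (Finset.range T.length).filter fun j => pre u (T.drop j) = true := by
      intro j h
      refine Finset.mem_filter.2 ⟨Finset.mem_range.2 ?_, pre_iff.2 (huC _ fun k hk => ?_)⟩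
      · exact (List.getElem?_eq_some_iff.1 (h 0 hn0)).1
      · rw [List.getElem?_drop, h k hk]
    intro x hx
    rcases Finset.mem_insert.1 hx with rfl | hx
    · refine fin _ fun k hk => ?_
      rw [show jw + i + s + k = jw + (i + k + s) by omega, hk1 _ (by omega), ← hCs (i + k)]
      push_cast
      rfl
    rcases Finset.mem_union.1 hx with hx | hx
    · refine fin _ fun k hk => ?_
      rw [← List.getElem?_drop]
      exact (Finset.mem_filter.1 hx).2 k (by omega)
    · obtain ⟨o, -, hx'⟩ := Finset.mem_biUnion.1 hx
      obtain ⟨j, hj, rfl⟩ := Finset.mem_image.1 hx'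
      refine fin _ fun k hk => ?_
      rw [add_assoc, (hCo o j hj).2.1 _ (by omega) (by omega)]
      congr 2
      push_cast
      ring
  have h7 := Finset.card_le_card h6
  rw [Finset.card_insert_of_notMem h5, Finset.card_union_of_disjoint h4, h3] at h7
  have h8 : ∑ o ∈ Finset.range B, D.countP (Q o) ≤ ∑ o ∈ Finset.range B, (Co o).card :=
    Finset.sum_le_sum fun o _ => h2 o
  rw [cnt, countP_sufs]
  omega

end Vale.Agent.P333
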