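import Vale.Agent.P333.Tokens

/-! Cycles of words, their vertices, and splicing. -/

namespace Vale.Agent.P333

set_option linter.unusedSectionVars false

section

variable {β : Type}

def Adj (L : List β) (a b : β) : Prop := ∃ A B, L = A ++ a :: b :: B

lemma adj_nil {a b : β} : ¬ Adj [] a b := by rintro ⟨A, B, h⟩; simp at h

lemma adj_cons {x : β} {L : List β} {a b : β} :
    Adj (x :: L) a b ↔ Adj L a b ∨ (x = a ∧ L.head? = some b) := by
  constructor
  · rintro ⟨A, B, h⟩
    cases A with
    | nil =>
      simp only [List.nil_append, List.cons.injEq] at h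
      exact Or.inr ⟨h.1, by simp [h.2]⟩
    | cons y A =>
      simp only [List.cons_append, List.cons.injEq] at h
      exact Or.inl ⟨A, B, h.2⟩
  · rintro (⟨A, B, rfl⟩ | ⟨rfl, h⟩)
    · exact ⟨x :: A, B, rfl⟩
    · obtain ⟨B, rfl⟩ := List.head?_eq_some_iff.1 h
      exact ⟨[], B, rfl⟩

lemma adj_append {A B : List β} {a b : β} :
    Adj (A ++ B) a b ↔ Adj A a b ∨ Adj B a b ∨ (A.getLast? = some a ∧ B.head? = some b) := by
  induction A with
  | nil => simp [adj_nil]
  | cons x A ih =>
    rw [List.cons_append, adj_cons, ih, adj_cons]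
    cases A with
    | nil => simp [adj_nil]
    | cons y A =>
      simp only [List.cons_append, List.head?_cons, List.getLast?_cons_cons]
      tauto

def Gap (K : List β) (a b : β) : Prop := Adj K a b ∨ (K.getLast? = some a ∧ K.head? = some b)

lemma gap_append {A B : List β} (hA : A ≠ []) (hB : B ≠ []) {a b : β} :
    Gap (A ++ B) a b ↔ Adj A a b ∨ Adj B a b ∨ (A.getLast? = some a ∧ B.head? = some b) ∨
      (B.getLast? = some a ∧ A.head? = some b) := by
  rw [Gap, adj_append, List.getLast?_append_of_ne_nil _ hB, List.head?_append_of_ne_nil _ hA]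
  tauto

lemma gap_rot {A B : List β} {a b : β} : Gap (A ++ B) a b ↔ Gap (B ++ A) a b := by
  by_cases hA : A = []
  · simp [hA]
  by_cases hB : B = []
  · simp [hB]
  rw [gap_append hA hB, gap_append hB hA]
  tauto

lemma rem_perm {P : List β} {k : ℕ} (hk : k < P.length) (d : β) :
    P.Perm (P.getD k d :: rem P k) := by
  have : P = P.take k ++ P.getD k d :: P.drop (k + 1) := by
    rw [List.getD_eq_getElem _ _ hk, List.getElem_cons_drop, List.take_append_drop]
  conv_lhs => rw [this]
  exact List.perm_middle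

lemma headD_filter_range {n : ℕ} {f : ℕ → Bool} (d : ℕ) (h : ∃ k < n, f k = true) :
    ((List.range n).filter f).headD d < n ∧ f (((List.range n).filter f).headD d) = true := by
  obtain ⟨k, hk, hf⟩ := h
  have : k ∈ (List.range n).filter f := List.mem_filter.2 ⟨List.mem_range.2 hk, hf⟩
  have h2 : ((List.range n).filter f).headD d ∈ (List.range n).filter f := by
    rcases h : (List.range n).filter f with _ | ⟨x, l⟩
    · rw [h] at this; cases this
    · simp
  exact ⟨List.mem_range.1 (List.mem_filter.1 h2).1, (List.mem_filter.1 h2).2⟩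

lemma rot_perm (K : List β) (l : ℕ) : (rot K l).Perm K := by
  conv_rhs => rw [← List.take_append_drop l K]
  exact List.perm_append_comm

end

variable {α : Type} [DecidableEq α] [Inhabited α]

def Chain (K : List (List α)) : Prop := ∀ a b, Adj K a b → a.tail <+: b

def Cyc (K : List (List α)) : Prop := ∀ a b, Gap K a b → a.tail <+: b

def Vtx (K : List (List α)) (v : List α) : Prop := ∃ a b, Gap K a b ∧ a.tail <+: v ∧ v <+: b

lemma lastT_eq {A : List (List α)} {a : List α} (h : A.getLast? = some a) : lastT A = a.tail := by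
  rw [lastT, List.getLastD_eq_getLast?, h]; rfl

lemma hd_eq {A : List (List α)} {a : List α} (h : A.head? = some a) : hd A = a := by
  rw [hd, List.headD_eq_head?_getD, h]; rfl

lemma ex_ends {A : List (List α)} (h : A ≠ []) :
    ∃ a b, A.getLast? = some a ∧ A.head? = some b :=
  ⟨_, _, List.getLast?_eq_some_getLast h, List.head?_eq_some_head h⟩

lemma cyc_rot {A B : List (List α)} : Cyc (A ++ B) ↔ Cyc (B ++ A) := by
  simp only [Cyc, gap_rot (A := A)]

lemma vtx_rot {A B : List (List α)} {v : List α} : Vtx (A ++ B) v ↔ Vtx (B ++ A) v := by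
  simp only [Vtx, gap_rot (A := A)]

lemma merge {A B : List (List α)} (hA : A ≠ []) (hB : B ≠ []) (cA : Cyc A) (cB : Cyc B)
    (h1 : lastT A <+: hd B) (h2 : lastT B <+: hd A) :
    Cyc (A ++ B) ∧ ∀ v, Vtx A v ∨ Vtx B v → Vtx (A ++ B) v := by
  obtain ⟨a, a', ha, ha'⟩ := ex_ends hA
  obtain ⟨b, b', hb, hb'⟩ := ex_ends hB
  rw [lastT_eq ha, hd_eq hb'] at h1
  rw [lastT_eq hb, hd_eq ha'] at h2
  have h3 := cA a a' (Or.inr ⟨ha, ha'⟩)
  have h4 := cB b b' (Or.inr ⟨hb, hb'⟩)
  have g1 : Gap (A ++ B) a b' := (gap_append hA hB).2 (Or.inr (Or.inr (Or.inl ⟨ha, hb'⟩)))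
  have g2 : Gap (A ++ B) b a' := (gap_append hA hB).2 (Or.inr (Or.inr (Or.inr ⟨hb, ha'⟩)))
  constructor
  · intro x y h
    rcases (gap_append hA hB).1 h with h | h | h | h
    · exact cA x y (Or.inl h)
    · exact cB x y (Or.inl h)
    · rw [ha, hb'] at h
      rw [← Option.some.inj h.1, ← Option.some.inj h.2]
      exact h1
    · rw [hb, ha'] at h
      rw [← Option.some.inj h.1, ← Option.some.inj h.2]
      exact h2
  · rintro v (⟨x, y, h | h, p1, p2⟩ | ⟨x, y, h | h, p1, p2⟩)
    · exact ⟨x, y, (gap_append hA hB).2 (Or.inl h), p1, p2⟩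
    · rw [ha, ha'] at h
      rw [← Option.some.inj h.1] at p1
      rw [← Option.some.inj h.2] at p2
      rcases List.prefix_or_prefix_of_prefix p2 h2 with c | c
      · exact ⟨a, b', g1, p1, c.trans h4⟩
      · exact ⟨b, a', g2, c, p2⟩
    · exact ⟨x, y, (gap_append hA hB).2 (Or.inr (Or.inl h)), p1, p2⟩
    · rw [hb, hb'] at h
      rw [← Option.some.inj h.1] at p1
      rw [← Option.some.inj h.2] at p2
      rcases List.prefix_or_prefix_of_prefix p2 h1 with c | c
      · exact ⟨b, a', g2, p1, c.trans h3⟩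
      · exact ⟨a, b', g1, c, p2⟩

lemma mem_spl {L K L' : List (List α)} : L' ∈ spl L K ↔ ∃ k < L.length, ∃ l < K.length,
    lastT (L.take (k + 1)) <+: hd (rot K l) ∧ lastT (rot K l) <+: hd (L.drop (k + 1)) ∧
      L' = L.take (k + 1) ++ (rot K l ++ L.drop (k + 1)) := by
  simp only [spl, List.mem_flatMap, List.mem_range, List.mem_map, List.mem_filter,
    Bool.and_eq_true, pre_iff]
  constructor
  · rintro ⟨k, hk, l, ⟨hl, h1, h2⟩, rfl⟩
    exact ⟨k, hk, l, hl, h1, h2, rfl⟩
  · rintro ⟨k, hk, l, hl, h1, h2, rfl⟩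
    exact ⟨k, hk, l, ⟨hl, h1, h2⟩, rfl⟩

lemma spl_perm {L K L' : List (List α)} (h : L' ∈ spl L K) : L'.Perm (L ++ K) := by
  obtain ⟨k, -, l, -, -, -, rfl⟩ := mem_spl.1 h
  conv_rhs => rw [← List.take_append_drop (k + 1) L, List.append_assoc]
  exact (List.perm_append_comm.trans ((rot_perm K l).append_left _)).append_left _

theorem spl_sound {L K L' : List (List α)} (h : L' ∈ spl L K) (h0 : L.head? = some [])
    (cL : Cyc L) (cK : Cyc K) :
    Cyc L' ∧ L'.head? = some [] ∧ ∀ v, Vtx L v ∨ Vtx K v → Vtx L' v := by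
  obtain ⟨k, hk, l, hl, h1, h2, rfl⟩ := mem_spl.1 h
  have hX : L.take (k + 1) ≠ [] := by
    rw [← List.length_pos_iff, List.length_take]; omega
  have hX0 : (L.take (k + 1)).head? = some [] := by rw [List.head?_take]; simpa using h0
  have hK : rot K l ≠ [] := by
    rw [← List.length_pos_iff, (rot_perm K l).length_eq]; omega
  have eL := List.take_append_drop (k + 1) L
  have eK := List.take_append_drop l K
  generalize L.take (k + 1) = X at *
  generalize L.drop (k + 1) = Y at *
  have e1 : lastT (Y ++ X) = lastT X := by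
    obtain ⟨a, -, ha, -⟩ := ex_ends hX
    rw [lastT_eq ha, lastT_eq ((List.getLast?_append_of_ne_nil _ hX).trans ha)]
  have e2 : hd (Y ++ X) = hd Y := by
    cases Y with
    | nil => rw [List.nil_append, hd_eq hX0]; rfl
    | cons y Y => rfl
  obtain ⟨m1, m2⟩ := merge (A := Y ++ X) (by simp [hX]) hK (cyc_rot.1 (eL ▸ cL))
    (cyc_rot.1 (by rw [eK]; exact cK)) (e1 ▸ h1) (e2 ▸ h2)
  rw [List.append_assoc] at m1 m2
  rw [← List.append_assoc]
  refine ⟨cyc_rot.1 m1, ?_, fun v hv => vtx_rot.1 (m2 v (hv.imp ?_ ?_))⟩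
  · rw [List.append_assoc, List.head?_append_of_ne_nil _ hX, hX0]
  · intro h; exact vtx_rot.1 (eL ▸ h)
  · intro h; exact vtx_rot.1 (by rw [eK]; exact h)

theorem spl_complete {L K : List (List α)} {v : List α} (h0 : L.head? = some [])
    (h1 : Vtx L v) (h2 : Vtx K v) : spl L K ≠ [] := by
  obtain ⟨a, b, g, p1, p2⟩ := h1
  obtain ⟨a', b', g', p3, p4⟩ := h2
  obtain ⟨k, hk, e1, e2⟩ : ∃ k < L.length, lastT (L.take (k + 1)) = a.tail ∧
      hd (L.drop (k + 1)) = b := by
    rcases g with ⟨A, B, rfl⟩ | ⟨g1, g2⟩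
    · refine ⟨A.length, by simp, lastT_eq ?_, hd_eq ?_⟩
      · rw [show A ++ a :: b :: B = (A ++ [a]) ++ b :: B by simp, List.take_left' (by simp)]
        simp
      · rw [show A ++ a :: b :: B = (A ++ [a]) ++ b :: B by simp, List.drop_left' (by simp)]
        simp
    · have : 0 < L.length := by
        rcases L with _ | _
        · cases h0
        · simp
      refine ⟨L.length - 1, by omega, ?_, ?_⟩
      · rw [Nat.sub_add_cancel this, List.take_length, lastT_eq g1]
      · rw [Nat.sub_add_cancel this, List.drop_length, ← Option.some.inj (h0.symm.trans g2)]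
        rfl
  obtain ⟨l, hl, e3, e4⟩ : ∃ l < K.length, lastT (rot K l) = a'.tail ∧ hd (rot K l) = b' := by
    rcases g' with ⟨A, B, rfl⟩ | ⟨g1, g2⟩
    · have : rot (A ++ a' :: b' :: B) (A.length + 1) = b' :: B ++ (A ++ [a']) := by
        rw [rot, show A ++ a' :: b' :: B = (A ++ [a']) ++ b' :: B by simp,
          List.take_left' (by simp), List.drop_left' (by simp)]
      refine ⟨A.length + 1, by simp, lastT_eq ?_, hd_eq ?_⟩
      · rw [this, ← List.append_assoc, List.getLast?_concat]
      · rw [this]; rfl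
    · have : 0 < K.length := by
        rcases K with _ | _
        · cases g2
        · simp
      exact ⟨0, this, by simpa [rot] using lastT_eq g1, by simpa [rot] using hd_eq g2⟩
  exact List.ne_nil_of_mem (mem_spl.2 ⟨k, hk, l, hl, by rw [e1, e4]; exact p1.trans p4,
    by rw [e2, e3]; exact p3.trans p2, rfl⟩)

/-- Invariant of the path joining phase. -/
def CInv (D : List (List α)) (P Cy : List (List (List α))) : Prop :=
  (∀ A ∈ P, A ≠ [] ∧ Chain A) ∧ (∀ K ∈ Cy, K ≠ [] ∧ Cyc K) ∧
    (P.flatten ++ Cy.flatten).Perm D ∧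
    ∀ s, (P.countP fun A => pre s (lastT A)) ≤ P.countP fun A => pre s (hd A)

lemma CInv.perm {D : List (List α)} {P P' Cy : List (List (List α))} (h : CInv D P Cy)
    (hp : P.Perm P') : CInv D P' Cy :=
  ⟨fun A hA => h.1 A (hp.mem_iff.2 hA), h.2.1,
    (hp.flatten.symm.append_right _).trans h.2.2.1,
    fun s => by rw [← hp.countP_eq, ← hp.countP_eq]; exact h.2.2.2 s⟩

lemma join_inv {D A : List (List α)} {P Cy : List (List (List α))} (h : CInv D (A :: P) Cy)
    (hm : ∀ B ∈ P, (lastT B).length ≤ (lastT A).length) :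
    CInv D (join A P Cy).1 (join A P Cy).2 ∧ (join A P Cy).1.length = P.length := by
  obtain ⟨h1, h2, h3, h4⟩ := h
  obtain ⟨hA, cA⟩ := h1 A (by simp)
  obtain ⟨a, a', ha, ha'⟩ := ex_ends hA
  have zero : ∀ s, lastT A <+: s → ¬ s <+: lastT A → ∀ B ∈ P, ¬ pre s (lastT B) = true := by
    intro s c1 c2 B hB hs
    have := (pre_iff.1 hs).length_le
    exact c2 (c1.eq_of_length_le (this.trans (hm B hB)) ▸ List.prefix_refl _)
  by_cases c : lastT A <+: hd A
  · rw [join, pre_iff.2 c, cond_true]
    refine ⟨⟨fun B hB => h1 B (by simp [hB]), fun K hK => ?_, ?_, fun s => ?_⟩, rfl⟩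
    · rcases List.mem_cons.1 hK with rfl | hK
      · refine ⟨hA, ?_⟩
        rintro x y (h | h)
        · exact cA x y h
        · rwa [lastT_eq h.1, hd_eq h.2] at c
      · exact h2 K hK
    · refine List.Perm.trans ?_ h3
      simp only [List.flatten_cons]
      rw [← List.append_assoc]
      exact List.perm_append_comm.append_right _
    · have := h4 s
      simp only [List.countP_cons, pre_iff] at this
      dsimp only
      by_cases c1 : s <+: lastT A
      · rw [if_pos c1, if_pos (c1.trans c)] at this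
        omega
      by_cases c2 : lastT A <+: s
      · rw [List.countP_eq_zero.2 (zero s c2 c1)]
        exact Nat.zero_le _
      · rw [if_neg c1, if_neg fun h => (List.prefix_or_prefix_of_prefix h c).elim c1 c2] at this
        omega
  · have hc : pre (lastT A) (hd A) = false := by rwa [← Bool.not_eq_true, pre_iff]
    rw [join, hc, cond_false]
    have hex : ∃ l < P.length, pre (lastT A) (hd (P.getD l [])) = true := by
      have := h4 (lastT A)
      simp only [List.countP_cons, pre_iff, List.prefix_refl, if_true, if_neg c] at this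
      obtain ⟨B, hB, hB'⟩ := List.countP_pos_iff.1
        (show 0 < P.countP fun B => pre (lastT A) (hd B) by omega)
      obtain ⟨l, hl, rfl⟩ := List.getElem_of_mem hB
      exact ⟨l, hl, by rwa [List.getD_eq_getElem _ _ hl]⟩
    obtain ⟨hl, hq⟩ := headD_filter_range 0 hex
    change pick2 (lastT A) P < _ at hl
    change pre (lastT A) (hd (P.getD (pick2 (lastT A) P) [])) = true at hq
    have hp := rem_perm hl []
    generalize P.getD (pick2 (lastT A) P) [] = Q at hq hp
    generalize rem P (pick2 (lastT A) P) = P' at hp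
    replace hq := pre_iff.1 hq
    obtain ⟨hQ, cQ⟩ := h1 Q (by simp [hp.mem_iff])
    obtain ⟨q, q', hq1, hq2⟩ := ex_ends hQ
    have e1 : lastT (A ++ Q) = lastT Q := by
      rw [lastT_eq hq1, lastT_eq ((List.getLast?_append_of_ne_nil _ hQ).trans hq1)]
    have e2 : hd (A ++ Q) = hd A := by
      rw [hd_eq ha', hd_eq ((List.head?_append_of_ne_nil _ hA).trans ha')]
    refine ⟨⟨fun B hB => ?_, h2, ?_, fun s => ?_⟩, by simp [hp.length_eq]⟩
    · rcases List.mem_cons.1 hB with rfl | hB
      · refine ⟨by simp [hA], fun x y h => ?_⟩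
        rcases adj_append.1 h with h | h | h
        · exact cA x y h
        · exact cQ x y h
        · rwa [lastT_eq h.1, hd_eq h.2] at hq
      · exact h1 B (by simp [hp.mem_iff, hB])
    · refine List.Perm.trans (List.Perm.append_right _ ?_) h3
      simp only [List.flatten_cons, List.append_assoc]
      exact List.Perm.append_left _ hp.flatten.symm
    · have := h4 s
      have z := zero s
      simp only [List.countP_cons, hp.countP_eq, pre_iff] at this
      dsimp only
      simp only [List.countP_cons, e1, e2, pre_iff]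
      by_cases c1 : s <+: lastT A
      · rw [if_pos c1, if_pos (c1.trans hq)] at this
        omega
      by_cases c2 : lastT A <+: s
      · rw [List.countP_eq_zero.2 fun B hB => z c2 c1 B (by simp [hp.mem_iff, hB]),
          if_neg fun h => z c2 c1 Q (by simp [hp.mem_iff]) (pre_iff.2 h)]
        exact Nat.zero_le _
      · rw [if_neg c1, if_neg fun h => (List.prefix_or_prefix_of_prefix h hq).elim c1 c2] at this
        omega

lemma cstep_inv {D : List (List α)} {st : List (List (List α)) × List (List (List α))}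
    (h : CInv D st.1 st.2) :
    CInv D (cstep st).1 (cstep st).2 ∧ (cstep st).1.length = st.1.length - 1 := by
  obtain ⟨P, Cy⟩ := st
  by_cases hP : P = []
  · subst hP
    exact ⟨h, rfl⟩
  have hex : ∃ k < P.length, (P.all fun B =>
      decide ((lastT B).length ≤ (lastT (P.getD k [])).length)) = true := by
    obtain ⟨B, hB, hm⟩ := P.toFinset.exists_max_image (fun B => (lastT B).length)
      ((List.toFinset_nonempty_iff _).2 hP)
    obtain ⟨k, hk, rfl⟩ := List.getElem_of_mem (List.mem_toFinset.1 hB)
    refine ⟨k, hk, List.all_eq_true.2 fun B hB => decide_eq_true ?_⟩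
    rw [List.getD_eq_getElem _ _ hk]
    exact hm B (List.mem_toFinset.2 hB)
  obtain ⟨hk, hm⟩ := headD_filter_range 0 hex
  change pick P < _ at hk
  change (P.all fun B => decide ((lastT B).length ≤ (lastT (P.getD (pick P) [])).length)) = true
    at hm
  have hp := rem_perm hk []
  have := join_inv (h.perm hp) fun B hB =>
    of_decide_eq_true (List.all_eq_true.1 hm B (by simp [hp.mem_iff, hB]))
  have e : P.isEmpty = false := by simpa using hP
  simp only [cstep, e, cond_false]
  refine ⟨this.1, this.2.trans ?_⟩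
  rw [hp.length_eq]
  simp

theorem cycles_stage {D : List (List α)}
    (h : ∀ s, (D.countP fun W => pre s W.tail) ≤ cnt D s) {γ : Type} (l : List γ) :
    CInv D (l.foldl (fun st _ => cstep st) (D.map fun W => [W], [])).1
      (l.foldl (fun st _ => cstep st) (D.map fun W => [W], [])).2 ∧
    (l.foldl (fun st _ => cstep st) (D.map fun W => [W], [])).1.length = D.length - l.length := by
  induction l using List.reverseRecOn with
  | nil =>
    refine ⟨⟨fun A hA => ?_, by simp, by simp [List.flatten_eq_flatMap, List.flatMap_map],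
      fun s => ?_⟩, by simp⟩
    · obtain ⟨W, -, rfl⟩ := List.mem_map.1 hA
      refine ⟨by simp, fun a b h => ?_⟩
      rcases adj_cons.1 h with h | h
      · exact (adj_nil h).elim
      · cases h.2
    · simp only [List.foldl_nil, List.countP_map]
      exact h s
  | append_singleton l x ih =>
    rw [List.foldl_append]
    simp only [List.foldl_cons, List.foldl_nil]
    obtain ⟨h1, h2⟩ := cstep_inv ih.1
    refine ⟨h1, ?_⟩
    rw [h2, ih.2]
    simp
    omega

theorem cycles_spec {D : List (List α)}
    (h : ∀ s, (D.countP fun W => pre s W.tail) ≤ cnt D s) :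
    (∀ K ∈ cycles D, K ≠ [] ∧ Cyc K) ∧ (cycles D).flatten.Perm D := by
  obtain ⟨⟨-, h2, h3, -⟩, h4⟩ := cycles_stage h D
  rw [Nat.sub_self, List.length_eq_zero_iff] at h4
  rw [h4] at h3
  exact ⟨h2, by simpa [cycles] using h3⟩

end Vale.Agent.P333
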