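import Mathlib

/-! Shortest common superstring: instances, optimum and bit codes. -/

namespace Vale.Agent.P333

/-- `T` contains every string of `S` as a contiguous substring. -/
def IsSuperstring {α : Type} (S : List (List α)) (T : List α) : Prop := ∀ s ∈ S, s <:+: T

/-- The least length of a common superstring of `S`. -/
noncomputable def OPT {α : Type} (S : List (List α)) : ℕ :=
  sInf {n | ∃ T, IsSuperstring S T ∧ T.length = n}

/-- Self-delimiting code of a list: a `true` before each item, a `false` at the end. -/
def codeList {β : Type} (f : β → List Bool) : List β → List Bool
  | [] => [false]
  | x :: l => true :: (f x ++ codeList f l)

/-- Code of one bit. -/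
def codeBit : Bool → List Bool
  | false => [false]
  | true => [true, false, false]

/-- Code of a string whose letters are bit strings. -/
def codeWord (w : List (List Bool)) : List Bool := codeList (codeList codeBit) w

/-- Code of a family of strings. -/
def codeInst (S : List (List (List Bool))) : List Bool := codeList codeWord S

end Vale.Agent.P333
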