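import Vale.Agent.P333.Cyc
import Vale.Agent.P333.Core

/-! Cycles of tokens as periodic layers. -/

namespace Vale.Agent.P333

set_option linter.unusedSectionVars false

variable {α : Type} [DecidableEq α] [Inhabited α]

lemma adj_iff_get {β : Type} {L : List β} {a b : β} :
    Adj L a b ↔ ∃ j, L[j]? = some a ∧ L[j + 1]? = some b := by
  constructor
  · rintro ⟨A, B, rfl⟩
    exact ⟨A.length, by simp, by simp⟩
  · rintro ⟨j, h1, h2⟩
    obtain ⟨k1, rfl⟩ := List.getElem?_eq_some_iff.1 h1
    obtain ⟨k2, rfl⟩ := List.getElem?_eq_some_iff.1 h2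
    exact ⟨L.take j, L.drop (j + 2), by
      rw [List.getElem_cons_drop, List.getElem_cons_drop, List.take_append_drop]⟩

lemma cz_get {K : List α} (hK : K ≠ []) (i : ℤ) :
    (i % K.length).toNat < K.length ∧ K[(i % K.length).toNat]? = some (cz K K.length i) := by
  have h0 : (0 : ℤ) < K.length := by exact_mod_cast List.length_pos_iff.2 hK
  have h1 := Int.emod_lt_of_pos i h0
  have h2 : (i % K.length).toNat < K.length := by omega
  refine ⟨h2, ?_⟩
  rw [cz, List.getD_eq_getElem _ _ h2, List.getElem?_eq_getElem h2]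

lemma cz_mem {K : List α} (hK : K ≠ []) (i : ℤ) : cz K K.length i ∈ K :=
  List.mem_of_getElem? (cz_get hK i).2

lemma cz_gap {K : List α} (hK : K ≠ []) (i : ℤ) :
    Gap K (cz K K.length (i - 1)) (cz K K.length i) := by
  have h0 : (0 : ℤ) < K.length := by exact_mod_cast List.length_pos_iff.2 hK
  obtain ⟨a1, a2⟩ := cz_get hK (i - 1)
  obtain ⟨b1, b2⟩ := cz_get hK i
  have n1 := Int.emod_nonneg (i - 1) h0.ne'
  have e : i % K.length = ((i - 1) % K.length + 1) % K.length := by simp
  by_cases c : (i - 1) % K.length + 1 < K.length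
  · rw [Int.emod_eq_of_lt (by omega) c] at e
    refine Or.inl (adj_iff_get.2 ⟨_, a2, ?_⟩)
    rw [← b2]
    congr 1
    omega
  · rw [show (i - 1) % K.length + 1 = K.length by omega, Int.emod_self] at e
    refine Or.inr ⟨?_, ?_⟩
    · rw [List.getLast?_eq_getElem?, ← a2]
      congr 1
      omega
    · rw [List.head?_eq_getElem?, ← b2, e]
      rfl

lemma cz_of_mem {K : List α} {a : α} (h : a ∈ K) : ∃ j : ℤ, cz K K.length j = a := by
  obtain ⟨j, hj, rfl⟩ := List.getElem_of_mem h
  exact ⟨j, by rw [cz_nat, Nat.mod_eq_of_lt hj, List.getD_eq_getElem _ _ hj]⟩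

lemma countP_cz {K : List α} (hK : K ≠ []) (P : α → Bool) (s : ℤ) :
    K.countP P =
      ((Finset.range K.length).filter fun q : ℕ => P (cz K K.length (q + s)) = true).card := by
  have h0 : (0 : ℤ) < K.length := by exact_mod_cast List.length_pos_iff.2 hK
  have : K.rotate (s % K.length).toNat =
      (List.range K.length).map fun q : ℕ => cz K K.length (q + s) := by
    refine List.ext_getElem? fun q => ?_
    by_cases hq : q < K.length
    · rw [List.getElem?_rotate hq, List.getElem?_map, List.getElem?_range hq, Option.map_some,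
        ← (cz_get hK _).2]
      congr 1
      have n1 := Int.emod_nonneg s h0.ne'
      have n2 := Int.emod_nonneg (q + s) h0.ne'
      zify
      rw [Int.toNat_of_nonneg n1, Int.toNat_of_nonneg n2, Int.add_emod_emod]
    · rw [List.getElem?_eq_none (by simp; omega), List.getElem?_eq_none (by simp; omega)]
  rw [← (List.rotate_perm K (s % K.length).toNat).countP_eq, this, List.countP_map, countP_range]
  rfl

lemma win_get (f : ℤ → α) {i e : ℤ} {k : ℕ} (h : i + k < e) :
    (win f i e)[k]? = some (f (i + k)) := by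
  rw [win, List.getElem?_map, List.getElem?_range (by omega)]
  rfl

lemma win_pre (f : ℤ → α) {i a b : ℤ} (h1 : i ≤ a) (h2 : a ≤ b) : win f i a <+: win f i b :=
  ⟨win f a b, win_append f h1 h2⟩

lemma win_drop (f : ℤ → α) (i e : ℤ) (j : ℕ) : (win f i e).drop j = win f (i + j) e := by
  refine List.ext_getElem? fun k => ?_
  rw [List.getElem?_drop]
  by_cases h : i + j + k < e
  · rw [win_get f h, win_get f (by push_cast; omega)]
    push_cast
    rw [add_assoc]
  · rw [List.getElem?_eq_none (by rw [win_length]; omega),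
      List.getElem?_eq_none (by rw [win_length]; omega)]

lemma win_tail (f : ℤ → α) (i e : ℤ) : (win f i e).tail = win f (i + 1) e := by
  rw [← List.drop_one, win_drop]; rfl

/-- Well formed families of cycles. -/
def WF (Cy : List (List (List α))) : Prop := ∀ K ∈ Cy, K ≠ [] ∧ Cyc K ∧ ∀ W ∈ K, W ≠ []

def txt (K : List (List α)) (i : ℤ) : α := (cz K K.length i).headD default

lemma letters {K : List (List α)} (hK : K ≠ [] ∧ Cyc K ∧ ∀ W ∈ K, W ≠ []) :
    ∀ (k : ℕ) (i : ℤ), k < (cz K K.length i).length →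
      (cz K K.length i)[k]? = some (txt K (i + k)) := by
  intro k
  induction k with
  | zero =>
    intro i h
    rw [Nat.cast_zero, add_zero, txt]
    rcases h' : cz K K.length i with _ | ⟨a, l⟩
    · rw [h'] at h; cases h
    · rfl
  | succ k ih =>
    intro i h
    have g := hK.2.1 _ _ (cz_gap hK.1 (i + 1))
    rw [add_sub_cancel_right] at g
    have h1 : k < (cz K K.length i).tail.length := by rw [List.length_tail]; omega
    rw [← List.getElem?_tail, ← pre_iff_get.1 g k h1, ih _ (h1.trans_le g.length_le)]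
    congr 2
    push_cast
    ring

lemma word_eq {K : List (List α)} (hK : K ≠ [] ∧ Cyc K ∧ ∀ W ∈ K, W ≠ []) (i : ℤ) :
    win (txt K) i (i + (cz K K.length i).length) = cz K K.length i := by
  refine List.ext_getElem? fun k => ?_
  by_cases h : k < (cz K K.length i).length
  · rw [letters hK k i h, win_get _ (by omega)]
  · rw [List.getElem?_eq_none (by rw [win_length]; omega), List.getElem?_eq_none (by omega)]

def sys (Cy : List (List (List α))) (h : WF Cy) : Sys {K // K ∈ Cy} α where
  c k := k.1.length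
  τ k := txt k.1
  ζ k i := i + (cz k.1 k.1.length i).length
  c_pos k := List.length_pos_iff.2 (h _ k.2).1
  τ_per k i := by rw [txt, txt, cz_per]
  ζ_per k i := by rw [cz_per]; ring
  ζ_mono k := monotone_int_of_le_succ fun i => by
    have g := ((h _ k.2).2.1 _ _ (cz_gap (h _ k.2).1 (i + 1))).length_le
    rw [add_sub_cancel_right, List.length_tail] at g
    omega
  ζ_gt k i := by
    have := List.length_pos_iff.2 ((h _ k.2).2.2 _ (cz_mem (h _ k.2).1 i))
    omega

lemma sys_vtx {Cy : List (List (List α))} (h : WF Cy) {k : {K // K ∈ Cy}} {v : List α}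
    (hv : (sys Cy h).V k v) : Vtx k.1 v ∧ ∃ W ∈ k.1, v <+: W := by
  obtain ⟨i, e, h1, h2, rfl⟩ := hv
  have h3 := (sys Cy h).ζ_gt k (i - 1)
  have h4 : win ((sys Cy h).τ k) i e <+: cz k.1 k.1.length i := by
    rw [← word_eq (h _ k.2) i]
    exact win_pre _ (by omega) h2
  refine ⟨⟨_, _, cz_gap (h _ k.2).1 i, ?_, h4⟩, _, cz_mem (h _ k.2).1 i, h4⟩
  rw [← word_eq (h _ k.2) (i - 1), win_tail, sub_add_cancel]
  exact win_pre _ (show i ≤ (sys Cy h).ζ k (i - 1) by omega) h1

lemma countP_flatten_le (B : ℕ) (P Q : List α → Bool) (R : ℕ → List α → Bool) :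
    ∀ Cy : List (List (List α)),
    (∀ K ∈ Cy, K.countP P ≤ K.countP Q + ∑ o ∈ Finset.range B, K.countP (R o)) →
    Cy.flatten.countP P ≤ Cy.flatten.countP Q + ∑ o ∈ Finset.range B, Cy.flatten.countP (R o)
  | [], _ => by simp
  | K :: Cy, h => by
    have h1 := h K (by simp)
    have h2 := countP_flatten_le B P Q R Cy fun K' hK' => h K' (by simp [hK'])
    simp only [List.flatten_cons, List.countP_append, Finset.sum_add_distrib]
    omega

theorem host_exists {S : List (List α)} {Cy : List (List (List α))} (h : WF Cy)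
    (hp : Cy.flatten.Perm (tokens S)) (k0 : {K // K ∈ Cy}) (j0 : ℤ)
    (hw : cz k0.1 k0.1.length j0 ∈ S)
    (hmax : ∀ s ∈ S, cz k0.1 k0.1.length j0 <:+: s → s.length ≤ (cz k0.1 k0.1.length j0).length)
    (p : ℕ) (hp0 : 0 < p) (hC : ∀ n, (sys Cy h).τ k0 (n + p) = (sys Cy h).τ k0 n)
    (hpw : j0 + p ≤ (sys Cy h).ζ k0 j0) (i e : ℤ) (h1 : j0 ≤ i) (h2 : i < e)
    (h3 : e ≤ (sys Cy h).ζ k0 j0) : ∃ k q, Host (sys Cy h) ((sys Cy h).τ k0) p i e k q := by
  classical
  have hw1 := word_eq (h _ k0.2) j0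
  change j0 + p ≤ j0 + (cz k0.1 k0.1.length j0).length at hpw
  change e ≤ j0 + (cz k0.1 k0.1.length j0).length at h3
  change ∀ n, txt k0.1 (n + p) = txt k0.1 n at hC
  change ∃ k q, Host (sys Cy h) (txt k0.1) p i e k q
  generalize cz k0.1 k0.1.length j0 = w at *
  generalize txt k0.1 = C at *
  have hwg : ∀ k < w.length, w[k]? = some (C (j0 + k)) := fun k hk => by
    rw [← win_get C (e := j0 + w.length) (by omega), hw1]
  have hcz : ∀ z, cz w p z = C (j0 + z) := by
    intro z
    have p0 : (0 : ℤ) < p := by exact_mod_cast hp0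
    have n1 := Int.emod_nonneg z p0.ne'
    have n2 := Int.emod_lt_of_pos z p0
    rw [cz, List.getD_eq_getElem?_getD, hwg _ (by omega), Int.toNat_of_nonneg n1,
      Option.getD_some, ← per_mul hC (z / p)]
    congr 1
    have := Int.emod_add_ediv_mul z p
    omega
  obtain ⟨i', rfl⟩ : ∃ i' : ℕ, i = j0 + i' := ⟨(i - j0).toNat, by omega⟩
  obtain ⟨n, rfl⟩ : ∃ n : ℕ, e = j0 + i' + n := ⟨(e - (j0 + i')).toNat, by omega⟩
  set u := win C (j0 + i') (j0 + i' + n) with hu
  have hul : u.length = n := by rw [hu, win_length]; omega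
  have hu0 : u ≠ [] := by rw [← List.length_pos_iff, hul]; omega
  have huw : u <+: w.drop i' := by
    rw [← hw1, win_drop]
    exact win_pre C (by omega) h3
  have hanc : (w, p, i') ∈ anchors S u := by
    refine mem_anchors.2 ⟨hw, hp0, by omega, by omega, hmax, ?_, huw⟩
    refine List.ext_getElem? fun k => ?_
    by_cases hk : k < w.length
    · rw [ext_get _ _ _ hk, hcz, hwg k hk]; simp
    · rw [List.getElem?_eq_none (by rw [ext_length]; omega), List.getElem?_eq_none (by omega)]
  have hr := (need_le_iff.1 (tokens_need hu0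
    ⟨w, hw, huw.isInfix.trans (List.drop_suffix _ _).isInfix⟩)).2.2 w p i' hanc
  rw [ruleVal_eq, hul, cnt, ← hp.countP_eq, ← hp.countP_eq] at hr
  simp only [← hp.countP_eq] at hr
  by_contra hno
  push Not at hno
  have := countP_flatten_le (tot S) (fun W => pre u W) (fun W => outB w p i' n W)
    (fun o W => certB w p i' n o W) Cy fun K hK => ?_
  · omega
  have hK' := h K hK
  rw [countP_cz hK'.1 _ 0, countP_cz hK'.1 _ 0,
    Finset.sum_congr rfl fun (o : ℕ) _ =>
      countP_cz hK'.1 (fun W => certB w p i' n o W) (-((o : ℤ) + 1))]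
  refine le_trans (Finset.card_le_card (t := _ ∪ (Finset.range (tot S)).biUnion _) ?_)
    ((Finset.card_union_le _ _).trans (Nat.add_le_add_left Finset.card_biUnion_le _))
  intro q hq
  obtain ⟨hq1, hq2⟩ := Finset.mem_filter.1 hq
  replace hq2 := pre_iff.1 hq2
  rw [add_zero] at hq2
  by_contra hnot
  rw [Finset.mem_union, not_or] at hnot
  have hlen := hq2.length_le
  refine hno ⟨K, hK⟩ (q - (j0 + i')) ⟨fun m m1 m2 => ?_, ?_, ?_, ?_⟩
  · obtain ⟨m', rfl⟩ : ∃ m' : ℕ, m = j0 + i' + m' := ⟨(m - (j0 + i')).toNat, by omega⟩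
    have a1 := pre_iff_get.1 hq2 m' (by omega)
    rw [letters hK' _ _ (by omega), hu, win_get C m2] at a1
    rw [← Option.some.inj a1]
    exact congrArg (txt K) (by ring)
  · change _ ≤ _ + ((cz K K.length _).length : ℤ) - _
    rw [sub_add_cancel]
    omega
  · rintro ⟨a1, a2⟩
    change _ ≤ _ + ((cz K K.length _).length : ℤ) - _ at a1
    rw [sub_add_cancel] at a1
    refine hnot.1 (Finset.mem_filter.2 ⟨hq1, outB_iff.2 fun m hm => ?_⟩)
    rw [add_zero, letters hK' _ _ (by omega), hcz, ← add_assoc, ← a2 _ (by omega) (by omega)]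
    exact congrArg (fun z => some (txt K z)) (by ring)
  · rintro a ha ⟨a1, a2, b, b1, b2, b3, b4⟩
    obtain ⟨o, rfl⟩ : ∃ o : ℕ, a = j0 + i' - (o + 1) := ⟨(j0 + i' - a - 1).toNat, by omega⟩
    change _ < _ + ((cz K K.length _).length : ℤ) - _ at b3
    change txt K _ ≠ _ at a1 b4
    change ∀ m, _ → _ → txt K _ = _ at a2
    rw [show (q : ℤ) - (j0 + i') + (j0 + i' - (o + 1)) = q + -(o + 1) by ring] at a1 b3
    have hV := (tokens_mem (hp.mem_iff.1 (List.mem_flatten.2
      ⟨K, hK, cz_mem hK'.1 (q + -(o + 1))⟩))).2.le_tot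
    refine hnot.2 (Finset.mem_biUnion.2 ⟨o, Finset.mem_range.2 (by omega),
      Finset.mem_filter.2 ⟨hq1, (certB_iff hp0).2 ⟨?_, fun m m1 m2 => ?_, ?_⟩⟩⟩)
    · rw [letters hK' _ _ (by omega), hcz, Nat.cast_zero, add_zero, ← add_sub_assoc]
      exact fun h => a1 (Option.some.inj h)
    · rw [letters hK' _ _ (by omega), hcz,
        show j0 + (i' - (o + 1) + m) = j0 + i' - (o + 1) + m by ring,
        ← a2 _ (by omega) (by omega)]
      exact congrArg (fun z => some (txt K z)) (by ring)
    · obtain ⟨m, rfl⟩ : ∃ m : ℕ, b = j0 + i' - (o + 1) + m :=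
        ⟨(b - (j0 + i' - (o + 1))).toNat, by omega⟩
      refine ⟨m, by omega, by omega, by omega, ?_⟩
      rw [letters hK' _ _ (by omega), hcz,
        show j0 + (i' - (o + 1) + m) = j0 + i' - (o + 1) + m by ring]
      intro h
      apply b4
      rw [← Option.some.inj h]
      exact congrArg (txt K) (by ring)

lemma loopT_get (t : List α) {p j : ℕ} (h : j < p) : (loopT t p)[j]? = some (t.drop j) := by
  rw [loopT, List.getElem?_map, List.getElem?_range h]; rfl

lemma loopT_length (t : List α) (p : ℕ) : (loopT t p).length = p := by simp [loopT]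

lemma loopT_cyc {t : List α} {p : ℕ} (h : t.drop p <+: t) : Cyc (loopT t p) := by
  rintro a b (g | ⟨g1, g2⟩)
  · obtain ⟨j, h1, h2⟩ := adj_iff_get.1 g
    have hj := (List.getElem?_eq_some_iff.1 h2).1
    rw [loopT_length] at hj
    rw [loopT_get t (by omega)] at h1 h2
    rw [← Option.some.inj h1, ← Option.some.inj h2, List.tail_drop]
  · rw [List.getLast?_eq_getElem?, loopT_length] at g1
    rw [List.head?_eq_getElem?] at g2
    have hj := (List.getElem?_eq_some_iff.1 g2).1
    rw [loopT_length] at hj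
    rw [loopT_get t (by omega)] at g1 g2
    rw [← Option.some.inj g1, ← Option.some.inj g2, List.tail_drop, Nat.sub_add_cancel hj]
    exact h

lemma loop_vtx {C : ℤ → α} {i E a b : ℤ} {p : ℕ} (hp : 0 < p) (hE : i + p ≤ E)
    (hper : ∀ n, i ≤ n → n + p < E → C (n + p) = C n) (h : LV i E p a b) :
    Vtx (loopT (win C i E) p) (win C a b) := by
  have e : win C (i + p) E = win C i (E - p) := by
    rw [win_congr (f := C) (g := C) (i := i) (e := E - p) p fun n h1 h2 =>
      (hper n h1 (by omega)).symm, sub_add_cancel]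
  have first : ∀ b, E - p ≤ b → b ≤ E → Vtx (loopT (win C i E) p) (win C i b) := by
    intro b h1 h2
    refine ⟨(win C i E).drop (p - 1), win C i E, Or.inr ⟨?_, ?_⟩, ?_, win_pre C (by omega) h2⟩
    · rw [List.getLast?_eq_getElem?, loopT_length, loopT_get _ (by omega)]
    · rw [List.head?_eq_getElem?, loopT_get _ hp]; rfl
    · rw [List.tail_drop, Nat.sub_add_cancel hp, win_drop, e]
      exact win_pre C (by omega) h1
  rcases h with ⟨rfl, h1, h2⟩ | ⟨h1, h2, rfl⟩
  · exact first b h1 h2
  by_cases c1 : a = i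
  · exact c1 ▸ first b (by omega) le_rfl
  by_cases c2 : a = i + p
  · rw [c2, e]
    exact first _ le_rfl (by omega)
  obtain ⟨j, rfl⟩ : ∃ j : ℕ, a = i + (j + 1 : ℕ) := ⟨(a - i - 1).toNat, by omega⟩
  refine ⟨_, _, Or.inl (adj_iff_get.2 ⟨j, loopT_get _ (by omega), loopT_get _ (by omega)⟩), ?_, ?_⟩
  · rw [List.tail_drop, win_drop]
  · rw [win_drop]

lemma mem_moves {Cy : List (List (List α))} {B : ℕ} {Λ : List (List α)} (h : Λ ∈ moves Cy B) :
    Cyc Λ := by
  simp only [moves, List.mem_flatMap, List.mem_map, List.mem_filter, pre_iff] at h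
  obtain ⟨t, -, p, ⟨-, h⟩, rfl⟩ := h
  exact loopT_cyc h

lemma loop_mem_moves {Cy : List (List (List α))} {B : ℕ} {K : List (List α)} (hK : K ∈ Cy)
    (h0 : K ≠ []) {i E : ℤ} {p : ℕ} (hE : i + p ≤ E) (hB : E - i ≤ B)
    (hper : ∀ n, i ≤ n → n + p < E → txt K (n + p) = txt K n) :
    loopT (win (txt K) i E) p ∈ moves Cy B := by
  simp only [moves, texts, List.mem_flatMap, List.mem_map, List.mem_filter, pre_iff,
    List.mem_range]
  obtain ⟨a1, -⟩ := cz_get h0 i
  refine ⟨_, ⟨K, hK, _, a1, (E - i).toNat, by omega, ?_⟩, p, ⟨by rw [win_length]; omega, ?_⟩, rfl⟩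
  · rw [ext, win]
    refine List.map_congr_left fun k _ => ?_
    have z0 : (0 : ℤ) < K.length := by exact_mod_cast List.length_pos_iff.2 h0
    have n1 := Int.emod_nonneg i z0.ne'
    have n2 := Int.emod_nonneg (i + k) z0.ne'
    have : ((i % K.length).toNat + k) % K.length = ((i + k) % K.length).toNat := by
      zify
      rw [Int.toNat_of_nonneg n1, Int.toNat_of_nonneg n2, Int.emod_add_emod]
    rw [this, List.getD_eq_getElem?_getD, List.getElem?_map, (cz_get h0 _).2]
    rfl
  · rw [win_drop, win_congr (f := txt K) (g := txt K) (i := i + p) (e := E) (-p) fun n h1 h2 => by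
      rw [← hper (n + -p) (by omega) (by omega)]; congr 1; ring, add_neg_cancel_right]
    exact win_pre _ (by omega) (by omega)

end Vale.Agent.P333
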