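import Vale.Agent.P333.Link

/-! Correctness and approximation ratio of the algorithm. -/

namespace Vale.Agent.P333

set_option linter.unusedSectionVars false

variable {α : Type} [DecidableEq α] [Inhabited α]

lemma headD_mem {β : Type} {l : List β} (h : l ≠ []) (d : β) : l.headD d ∈ l := by
  rcases l with _ | ⟨x, l⟩
  · exact (h rfl).elim
  · simp

lemma absorb_aux : ∀ (Rem : List (List (List α))) (L : List (List α)) (R0 : List (List (List α))),
    L.head? = some [] → Cyc L → (∀ K ∈ Rem, Cyc K) →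
    ∃ Abs Left : List (List (List α)), Rem.Perm (Abs ++ Left) ∧
      (Rem.foldl astep (L, R0)).2 = R0 ++ Left ∧
      (Rem.foldl astep (L, R0)).1.Perm (L ++ Abs.flatten) ∧
      (Rem.foldl astep (L, R0)).1.head? = some [] ∧ Cyc (Rem.foldl astep (L, R0)).1 ∧
      (∀ v, Vtx L v → Vtx (Rem.foldl astep (L, R0)).1 v) ∧
      (∀ K ∈ Abs, ∀ v, Vtx K v → Vtx (Rem.foldl astep (L, R0)).1 v) ∧
      ∀ K ∈ Left, ∀ v, Vtx K v → ¬ Vtx L v
  | [], L, R0, h0, cL, _ => ⟨[], [], by simp, by simp, by simp, h0, cL, fun _ h => h, by simp,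
      by simp⟩
  | K :: Rem, L, R0, h0, cL, cR => by
    rw [List.foldl_cons]
    by_cases c : spl L K = []
    · have e : astep (L, R0) K = (L, R0 ++ [K]) := by simp [astep, c]
      rw [e]
      obtain ⟨Abs, Left, h1, h2, h3, h4, h5, h6, h7, h8⟩ :=
        absorb_aux Rem L (R0 ++ [K]) h0 cL fun K' hK' => cR K' (by simp [hK'])
      refine ⟨Abs, K :: Left, (h1.cons K).trans List.perm_middle.symm, by simp [h2], h3, h4, h5,
        h6, h7, fun K' hK' v hv hL => ?_⟩
      rcases List.mem_cons.1 hK' with rfl | hK'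
      · exact spl_complete h0 hL hv c
      · exact h8 K' hK' v hv hL
    · have e : astep (L, R0) K = ((spl L K).headD [], R0) := by
        have : (spl L K).isEmpty = false := by simpa using c
        simp only [astep, this, cond_false]
      rw [e]
      have hm := headD_mem c []
      obtain ⟨s1, s2, s3⟩ := spl_sound hm h0 cL (cR K (by simp))
      obtain ⟨Abs, Left, h1, h2, h3, h4, h5, h6, h7, h8⟩ :=
        absorb_aux Rem _ R0 s2 s1 fun K' hK' => cR K' (by simp [hK'])
      refine ⟨K :: Abs, Left, h1.cons K, h2, ?_, h4, h5, fun v hv => h6 v (s3 v (Or.inl hv)),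
        fun K' hK' v hv => ?_, fun K' hK' v hv hL => h8 K' hK' v hv (s3 v (Or.inl hL))⟩
      · rw [List.flatten_cons, ← List.append_assoc]
        exact h3.trans ((spl_perm hm).append_right _)
      · rcases List.mem_cons.1 hK' with rfl | hK'
        · exact h6 v (s3 v (Or.inr hv))
        · exact h7 K' hK' v hv

/-- Invariant of the connecting phase. -/
def JInv (Cy : List (List (List α))) (st : List (List α) × List (List (List α))) : Prop :=
  st.1.head? = some [] ∧ Cyc st.1 ∧ Vtx st.1 [] ∧ (∀ K ∈ st.2, K ∈ Cy) ∧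
    ∀ K ∈ Cy, K ∈ st.2 ∨ ((∀ W ∈ K, W ∈ st.1) ∧ ∀ v, Vtx K v → Vtx st.1 v)

lemma first_splice {L Λ : List (List α)} (h0 : L.head? = some []) (cL : Cyc L) (cΛ : Cyc Λ) :
    ((spl L Λ).headD L).head? = some [] ∧ Cyc ((spl L Λ).headD L) ∧
      (∀ v, Vtx L v → Vtx ((spl L Λ).headD L) v) ∧ (∀ W ∈ L, W ∈ (spl L Λ).headD L) ∧
      ((spl L Λ).headD L).length ≤ L.length + Λ.length ∧
      (spl L Λ ≠ [] → ∀ v, Vtx Λ v → Vtx ((spl L Λ).headD L) v) := by
  by_cases c : spl L Λ = []
  · rw [c]
    exact ⟨h0, cL, fun _ h => h, fun _ h => h, Nat.le_add_right _ _, fun h => (h rfl).elim⟩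
  · have hm := headD_mem c L
    obtain ⟨s1, s2, s3⟩ := spl_sound hm h0 cL cΛ
    exact ⟨s2, s1, fun v hv => s3 v (Or.inl hv),
      fun W hW => (spl_perm hm).mem_iff.2 (by simp [hW]),
      by rw [(spl_perm hm).length_eq, List.length_append], fun _ v hv => s3 v (Or.inr hv)⟩

lemma tryMove_inv {Cy : List (List (List α))} (h : WF Cy)
    {st : List (List α) × List (List (List α))} (hJ : JInv Cy st) {Λ : List (List α)}
    (cΛ : Cyc Λ) : JInv Cy (tryMove st Λ) := by
  obtain ⟨j1, j2, j3, j4, j5⟩ := hJ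
  obtain ⟨f1, f2, f3, f4, -, -⟩ := first_splice j1 j2 cΛ
  obtain ⟨Abs, Left, h1, h2, h3, h4, h5, h6, h7, -⟩ :=
    absorb_aux st.2 _ [] f1 f2 fun K hK => (h K (j4 K hK)).2.1
  refine ⟨h4, h5, h6 _ (f3 _ j3), fun K hK => ?_, fun K hK => ?_⟩
  · rw [tryMove, absorb, h2] at hK
    exact j4 K (h1.mem_iff.2 (by simp_all))
  · rcases j5 K hK with c | c
    · rcases List.mem_append.1 (h1.mem_iff.1 c) with c | c
      · exact Or.inr ⟨fun W hW => h3.mem_iff.2 (List.mem_append_right _
          (List.mem_flatten.2 ⟨K, c, hW⟩)), h7 K c⟩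
      · left
        rw [tryMove, absorb, h2]
        simpa using c
    · exact Or.inr ⟨fun W hW => h3.mem_iff.2 (List.mem_append_left _ (f4 W (c.1 W hW))),
        fun v hv => h6 v (f3 v (c.2 v hv))⟩

lemma sum_toFinset_le {β : Type} [DecidableEq β] (f : β → ℕ) :
    ∀ l : List β, ∑ x ∈ l.toFinset, f x ≤ (l.map f).sum
  | [] => by simp
  | x :: l => by
    have := sum_toFinset_le f l
    rw [List.toFinset_cons, List.map_cons, List.sum_cons]
    by_cases h : x ∈ l.toFinset
    · rw [Finset.insert_eq_of_mem h]; omega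
    · rw [Finset.sum_insert h]; omega

lemma sum_le_flatten {Cy : List (List (List α))} (Q : Finset {K // K ∈ Cy})
    {A : List (List (List α))} (h : ∀ k ∈ Q, k.1 ∈ A) :
    ∑ k ∈ Q, k.1.length ≤ A.flatten.length := by
  rw [List.length_flatten]
  refine le_trans ?_ (sum_toFinset_le List.length A)
  rw [← Finset.sum_image (s := Q) (g := Subtype.val) (f := List.length)
    fun a _ b _ e => Subtype.ext e]
  refine Finset.sum_le_sum_of_subset fun K hK => ?_
  obtain ⟨k, hk, rfl⟩ := Finset.mem_image.1 hK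
  exact List.mem_toFinset.2 (h k hk)

lemma cycles_wf (S : List (List α)) :
    WF (cycles (tokens S)) ∧ (cycles (tokens S)).flatten.Perm (tokens S) := by
  obtain ⟨h1, h2⟩ := cycles_spec (tokens_bal S)
  exact ⟨fun K hK => ⟨(h1 K hK).1, (h1 K hK).2, fun W hW =>
    (tokens_mem (h2.mem_iff.1 (List.mem_flatten.2 ⟨K, hK, hW⟩))).1⟩, h2⟩

theorem progress {S : List (List α)} {Cy : List (List (List α))} (h : WF Cy)
    (hp : Cy.flatten.Perm (tokens S)) {st : List (List α) × List (List (List α))}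
    (hJ : JInv Cy st) {K : List (List α)} (hK : K ∈ st.2) {w : List α} (hwK : w ∈ K) (hw : w ∈ S)
    (hmax : ∀ s ∈ S, w <:+: s → s.length ≤ w.length) :
    ∃ Λ ∈ moves Cy (2 * tot S), accept st (tryMove st Λ) = true := by
  classical
  obtain ⟨j1, j2, j3, j4, j5⟩ := hJ
  obtain ⟨j0, rfl⟩ := cz_of_mem hwK
  have hN : Cy.flatten.length ≤ tot S := hp.length_eq ▸ tokens_length (sup_flat S)
  obtain ⟨i, E, p, Q, m1, m2, m3, ⟨a, b, m4, m5, -⟩, m6, m7, m8, m9⟩ :=
    core (sys Cy h) (fun k => k.1 ∈ st.2) (fun v => Vtx st.1 v ∧ InV S v) (tot S)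
      Cy.flatten.length (fun k => by
        have := sum_le_flatten {k} (A := Cy) fun k _ => k.2
        rwa [Finset.sum_singleton] at this)
      ⟨j3, _, hw, List.nil_infix⟩ (fun v hv => hv.2.le_tot)
      (fun k => (j5 k.1 k.2).imp_right fun c v hv => by
        obtain ⟨v1, W, v2, v3⟩ := sys_vtx h hv
        exact ⟨c.2 v v1, (tokens_mem (hp.mem_iff.1 (List.mem_flatten.2
          ⟨k.1, k.2, v2⟩))).2.mono v3.isInfix⟩)
      ⟨K, j4 K hK⟩ j0 hK
      (by
        rintro v ⟨-, s, hs, hv⟩ hinf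
        change win (txt K) j0 (j0 + (cz K K.length j0).length) <:+: v at hinf
        rw [word_eq (h K (j4 K hK))] at hinf
        have h1 := hmax s hs (hinf.trans hv)
        have h2 := hv.length_le
        change _ ≤ (j0 + ((cz K K.length j0).length : ℤ) - j0).toNat
        omega)
      (fun p h1 h2 h3 i e h4 h5 h6 => host_exists h hp ⟨K, j4 K hK⟩ j0 hw hmax p h1 h2 h3 i e
        h4 h5 h6)
  change ∀ n, _ → _ → txt K _ = txt K _ at m3
  change p ≤ ∑ k ∈ Q, k.1.length at m8
  change E - i ≤ _ + ((∑ k ∈ Q, k.1.length : ℕ) : ℤ) at m9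
  have hQ := sum_le_flatten Q (A := Cy) fun k _ => k.2
  have hmem := loop_mem_moves (B := 2 * tot S) (j4 K hK) (h K (j4 K hK)).1 m2 (by omega) m3
  refine ⟨_, hmem, ?_⟩
  obtain ⟨f1, f2, -, -, f5, f6⟩ := first_splice j1 j2 (mem_moves hmem)
  replace f6 := f6 (spl_complete j1 m5 (loop_vtx m1 m2 m3 m4))
  obtain ⟨Abs, Left, h1, h2, h3, -, -, -, -, h8⟩ :=
    absorb_aux st.2 _ [] f1 f2 fun K hK => (h K (j4 K hK)).2.1
  have hA : ∀ k ∈ Q, k.1 ∈ Abs := by
    intro k hk
    obtain ⟨q1, a, b, q2, q3⟩ := m7 k hk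
    refine (List.mem_append.1 (h1.mem_iff.1 q1)).resolve_right fun c => ?_
    exact h8 _ c _ (sys_vtx h q3).1 (f6 _ (loop_vtx m1 m2 m3 q2))
  have a1 := sum_le_flatten Q hA
  obtain ⟨k, hk⟩ := m6
  have a2 := List.length_pos_of_mem (hA k hk)
  have a3 := h1.length_eq
  have a4 := h1.flatten.length_eq
  have a5 := h3.length_eq
  rw [loopT_length] at f5
  rw [List.flatten_append, List.length_append] at a4
  rw [List.length_append] at a3 a5
  simp only [accept, phi, tryMove, absorb, h2, List.nil_append, List.flatMap_id',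
    Bool.and_eq_true, decide_eq_true_eq]
  omega

lemma round_cases (Mv : List (List (List α))) (st : List (List α) × List (List (List α))) :
    ((∀ Λ ∈ Mv, ¬ accept st (tryMove st Λ) = true) ∧ round Mv st = st) ∨
      ∃ Λ ∈ Mv, accept st (tryMove st Λ) = true ∧ round Mv st = tryMove st Λ := by
  by_cases c : ((Mv.map fun Λ => tryMove st Λ).filter fun st' => accept st st') = []
  · refine Or.inl ⟨fun Λ hΛ ha => ?_, by rw [round, c]; rfl⟩
    exact List.ne_nil_of_mem (List.mem_filter.2 ⟨List.mem_map.2 ⟨Λ, hΛ, rfl⟩, ha⟩) c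
  · obtain ⟨h1, h2⟩ := List.mem_filter.1 (headD_mem c st)
    obtain ⟨Λ, hΛ, e⟩ := List.mem_map.1 h1
    exact Or.inr ⟨Λ, hΛ, e ▸ h2, e.symm⟩

theorem run_stage {Cy Mv : List (List (List α))} (h : WF Cy) (hM : ∀ Λ ∈ Mv, Cyc Λ)
    {γ : Type} (l : List γ) :
    JInv Cy (l.foldl (fun st _ => round Mv st) ([[]], Cy)) ∧
    phi (l.foldl (fun st _ => round Mv st) ([[]], Cy)) ≤ 1 + 2 * Cy.flatten.length ∧
    ((∀ Λ ∈ Mv, ¬ accept (l.foldl (fun st _ => round Mv st) ([[]], Cy))
        (tryMove (l.foldl (fun st _ => round Mv st) ([[]], Cy)) Λ) = true) ∨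
      (l.foldl (fun st _ => round Mv st) ([[]], Cy)).2.length + l.length ≤ Cy.length) := by
  induction l using List.reverseRecOn with
  | nil =>
    refine ⟨⟨rfl, ?_, ⟨[], [], Or.inr ⟨rfl, rfl⟩, List.nil_prefix, List.nil_prefix⟩,
      fun _ h => h, fun _ h => Or.inl h⟩, by simp [phi], Or.inr (by simp)⟩
    rintro a b (g | ⟨g, -⟩)
    · rcases adj_cons.1 g with g | g
      · exact (adj_nil g).elim
      · cases g.2
    · rw [← Option.some.inj g]
      exact List.nil_prefix
  | append_singleton l x ih =>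
    rw [List.foldl_append]
    simp only [List.foldl_cons, List.foldl_nil]
    generalize l.foldl (fun st _ => round Mv st) ([[]], Cy) = st at ih
    obtain ⟨i1, i2, i3⟩ := ih
    rcases round_cases Mv st with ⟨c1, c2⟩ | ⟨Λ, c1, c2, c3⟩
    · rw [c2]
      exact ⟨i1, i2, Or.inl c1⟩
    · rw [c3]
      have c4 := c2
      simp only [accept, Bool.and_eq_true, decide_eq_true_eq] at c4
      refine ⟨tryMove_inv h i1 (hM Λ c1), c4.2.trans i2, Or.inr ?_⟩
      rcases i3 with i3 | i3
      · exact (i3 Λ c1 c2).elim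
      · rw [List.length_append, List.length_singleton]
        omega

lemma spell : ∀ (L : List (List α)), Chain (L ++ [[]]) →
    hd L <+: (L.flatMap fun W => W.take 1) ∧ ∀ W ∈ L, W <:+: L.flatMap fun W => W.take 1
  | [], _ => by simp [hd]
  | W :: L, h => by
    obtain ⟨i1, i2⟩ := spell L fun a b g => h a b (adj_cons.2 (Or.inl g))
    have h1 : W.tail <+: hd L := by
      refine h W _ (adj_cons.2 (Or.inr ⟨rfl, ?_⟩))
      cases L <;> rfl
    have h2 : W <+: (W :: L).flatMap fun W => W.take 1 := by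
      rw [List.flatMap_cons]
      conv_lhs => rw [← List.take_append_drop 1 W, List.drop_one]
      exact (List.prefix_append_right_inj _).2 (h1.trans i1)
    refine ⟨h2, fun W' hW' => ?_⟩
    rcases List.mem_cons.1 hW' with rfl | hW'
    · exact h2.isInfix
    · rw [List.flatMap_cons]
      exact (i2 W' hW').trans (List.suffix_append _ _).isInfix

lemma spell_length : ∀ L : List (List α), (L.flatMap fun W => W.take 1).length ≤ L.length
  | [] => le_rfl
  | W :: L => by
    have := spell_length L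
    rw [List.flatMap_cons, List.length_append, List.length_take, List.length_cons]
    omega

theorem solve_spec (S : List (List α)) :
    Sup S (solve S) ∧ ∀ T, Sup S T → (solve S).length ≤ 2 * T.length := by
  classical
  obtain ⟨h, hp⟩ := cycles_wf S
  obtain ⟨hJ, h2, h3⟩ := run_stage (Mv := moves (cycles (tokens S)) (2 * tot S)) h
    (fun _ => mem_moves) (List.range ((cycles (tokens S)).length + 1))
  unfold solve run
  generalize List.foldl _ _ (List.range ((cycles (tokens S)).length + 1)) = st at hJ h2 h3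
  replace h3 := h3.resolve_right (by rw [List.length_range]; omega)
  obtain ⟨L, hL⟩ := List.head?_eq_some_iff.1 hJ.1
  have hc : Chain (st.1 ++ [[]]) := by
    intro a b g
    refine hJ.2.1 a b ?_
    rcases adj_append.1 g with g | g | g
    · exact Or.inl g
    · rcases adj_cons.1 g with g | g
      · exact (adj_nil g).elim
      · cases g.2
    · exact Or.inr ⟨g.1, hJ.1.trans g.2⟩
  constructor
  · intro s hs
    by_cases h0 : s = []
    · rw [h0]; exact List.nil_infix
    obtain ⟨w, hw, hm⟩ := (S.toFinset.filter fun w => s <:+: w).exists_max_image List.length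
      ⟨s, by simp [hs]⟩
    obtain ⟨hw1, hw2⟩ := Finset.mem_filter.1 hw
    replace hw1 := List.mem_toFinset.1 hw1
    have hmax : ∀ s' ∈ S, w <:+: s' → s'.length ≤ w.length := fun s' h1 h2 =>
      hm s' (Finset.mem_filter.2 ⟨List.mem_toFinset.2 h1, hw2.trans h2⟩)
    have hw0 : w ≠ [] := by
      rintro rfl
      exact h0 (List.infix_nil.1 hw2)
    obtain ⟨W, hW, hwW⟩ := List.countP_pos_iff.1
      (need_le_iff.1 (tokens_need hw0 ⟨w, hw1, List.infix_refl _⟩)).1
    replace hwW := pre_iff.1 hwW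
    obtain ⟨s', hs', hWs⟩ := (tokens_mem hW).2
    obtain rfl : w = W := hwW.eq_of_length_le
      (hWs.length_le.trans (hmax s' hs' (hwW.isInfix.trans hWs)))
    obtain ⟨K, hK, hwK⟩ := List.mem_flatten.1 (hp.mem_iff.2 hW)
    rcases hJ.2.2.2.2 K hK with c | c
    · obtain ⟨Λ, c1, c2⟩ := progress h hp hJ c hwK hw1 hmax
      exact (h3 Λ c1 c2).elim
    · exact hw2.trans ((spell _ hc).2 w (c.1 w hwK))
  · intro T hT
    have a1 := tokens_length hT
    have a2 := hp.length_eq
    have a3 := spell_length L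
    rw [phi, hL, List.length_cons] at h2
    rw [hL, List.flatMap_cons, List.take_nil, List.nil_append]
    omega

end Vale.Agent.P333
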