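import Vale.Agent.P333.Main
import Vale.Agent.TM.PT

/-! Size bounds for the loops of the algorithm. -/

namespace Vale.Agent.P333

open Vale.Agent.TM

set_option linter.unusedSectionVars false

variable {α : Type} [DecidableEq α] [Inhabited α] [Enc α]

lemma sz_foldl_max : ∀ (l : List ℕ) (b : ℕ), sz (l.foldl max b) + 1 ≤ sz b + sz l
  | [], b => by simp
  | a :: l, b => by
    have := sz_foldl_max l (max b a)
    simp only [List.foldl_cons, sz_nat, sz_cons] at this ⊢
    omega

lemma sz_tokens_stage (S : List (List α)) (k : ℕ) :
    sz (((allFacs S).take k).foldl (tstep S) []) ≤ tot S * (sz (allFacs S) + 1) + 1 := by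
  obtain ⟨h1, h2⟩ := tokens_stage S k
  exact (sz_list_le fun W hW => sz_le_of_mem (h2 W hW)).trans
    (Nat.add_le_add_right (Nat.mul_le_mul_right _ h1) _)

lemma length_le_flatten {β : Type} : ∀ P : List (List β), (∀ A ∈ P, A ≠ []) →
    P.length ≤ P.flatten.length
  | [], _ => le_rfl
  | A :: P, h => by
    have h1 := length_le_flatten P fun B hB => h B (by simp [hB])
    have h2 := List.length_pos_iff.2 (h A (by simp))
    rw [List.flatten_cons, List.length_append, List.length_cons]
    omega

lemma sz_of_cinv {D : List (List α)} {st : List (List (List α)) × List (List (List α))}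
    (h : CInv D st.1 st.2) : sz st ≤ 2 * (sz D * (sz D + 1) + 1) + 1 := by
  obtain ⟨h1, h2, h3, -⟩ := h
  have a1 := length_le_flatten _ fun A hA => (h1 A hA).1
  have a2 := length_le_flatten _ fun A hA => (h2 A hA).1
  have a3 := h3.length_eq
  have a4 := length_le_sz D
  rw [List.length_append] at a3
  have b1 : sz st.1 ≤ st.1.length * (sz D + 1) + 1 := sz_list_le fun A hA => by
    rw [← sz_perm h3]
    exact sz_le_of_sublist ((List.sublist_flatten_of_mem hA).trans (List.sublist_append_left _ _))
  have b2 : sz st.2 ≤ st.2.length * (sz D + 1) + 1 := sz_list_le fun A hA => by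
    rw [← sz_perm h3]
    exact sz_le_of_sublist ((List.sublist_flatten_of_mem hA).trans (List.sublist_append_right _ _))
  have c1 := Nat.mul_le_mul_right (sz D + 1) (show st.1.length ≤ sz D by omega)
  have c2 := Nat.mul_le_mul_right (sz D + 1) (show st.2.length ≤ sz D by omega)
  rw [sz_prod]
  omega

lemma sz_astep (st : List (List α) × List (List (List α))) (K : List (List α)) :
    sz (astep st K) ≤ sz st + sz K + 1 := by
  by_cases c : spl st.1 K = []
  · have e : astep st K = (st.1, st.2 ++ [K]) := by simp [astep, c]
    have := sz_append st.2 [K]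
    rw [e, sz_prod st, sz_pair]
    simp only [sz_cons, sz_nil] at this
    omega
  · have e : astep st K = ((spl st.1 K).headD [], st.2) := by
      have : (spl st.1 K).isEmpty = false := by simpa using c
      simp only [astep, this, cond_false]
    have := sz_append st.1 K
    rw [e, sz_prod st, sz_pair, sz_perm (spl_perm (headD_mem c []))]
    omega

lemma sz_foldl_astep : ∀ (l : List (List (List α))) (st : List (List α) × List (List (List α))),
    sz (l.foldl astep st) + 1 ≤ sz st + sz l
  | [], st => by simp
  | K :: l, st => by
    have h1 := sz_foldl_astep l (astep st K)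
    have h2 := sz_astep st K
    rw [List.foldl_cons, sz_cons]
    omega

lemma sz_tryMove (st : List (List α) × List (List (List α))) (Λ : List (List α)) :
    sz (tryMove st Λ) ≤ sz st + sz Λ := by
  have h1 := sz_foldl_astep st.2 ((spl st.1 Λ).headD st.1, [])
  have h2 : sz ((spl st.1 Λ).headD st.1) + 1 ≤ sz st.1 + sz Λ := by
    by_cases c : spl st.1 Λ = []
    · have := sz_pos Λ
      rw [c, List.headD_nil]
      omega
    · rw [sz_perm (spl_perm (headD_mem c _)), sz_append]
  rw [sz_pair ((spl st.1 Λ).headD st.1), sz_nil] at h1
  rw [sz_prod st, tryMove, absorb]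
  omega

lemma sz_round (Mv : List (List (List α))) (st : List (List α) × List (List (List α))) :
    sz (round Mv st) ≤ sz st + sz Mv := by
  rcases round_cases Mv st with ⟨-, c⟩ | ⟨Λ, c1, -, c3⟩
  · rw [c]; omega
  · have := sz_tryMove st Λ
    have := sz_le_of_mem c1
    rw [c3]
    omega

lemma sz_foldl_round (Mv : List (List (List α))) {γ : Type} :
    ∀ (l : List γ) (st : List (List α) × List (List (List α))),
    sz (l.foldl (fun st _ => round Mv st) st) ≤ sz st + l.length * sz Mv
  | [], st => by simp
  | _ :: l, st => by
    have h1 := sz_foldl_round Mv l (round Mv st)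
    have h2 := sz_round Mv st
    rw [List.foldl_cons, List.length_cons, add_mul]
    omega

end Vale.Agent.P333
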