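import Vale.Agent.P333.Defs
import Vale.Agent.P333.Size
import Vale.Agent.TM.Poly

/-! The algorithm runs in polynomial time. -/

namespace Vale.Agent.P333

open Vale.Agent.TM

set_option linter.unusedSectionVars false

variable {α : Type} [DecidableEq α] [Inhabited α] [Enc α] {γ : Type} [Enc γ]

section
variable {a b w u t W : γ → List α} {p j n i o B : γ → ℕ} {S D A L K : γ → List (List α)}
  {P Cy Mv : γ → List (List (List α))}

@[fun_prop] theorem pt_pre (ha : PT a) (hb : PT b) : PT fun x => pre (a x) (b x) := by
  unfold pre; fun_prop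

@[fun_prop] theorem pt_ext (hw : PT w) (hp : PT p) (hj : PT j) (hn : PT n) :
    PT fun x => ext (w x) (p x) (j x) (n x) := by
  unfold ext; fun_prop

@[fun_prop] theorem pt_cnt (hD : PT D) (hu : PT u) : PT fun x => cnt (D x) (u x) := by
  unfold cnt; fun_prop

@[fun_prop] theorem pt_tot (hS : PT S) : PT fun x => tot (S x) := by
  unfold tot; fun_prop

@[fun_prop] theorem pt_facs (hS : PT S) (hn : PT n) : PT fun x => facs (S x) (n x) := by
  unfold facs; fun_prop

@[fun_prop] theorem pt_allFacs (hS : PT S) : PT fun x => allFacs (S x) := by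
  unfold allFacs; fun_prop

@[fun_prop] theorem pt_isInf (hw : PT w) (hu : PT u) : PT fun x => isInf (w x) (u x) := by
  unfold isInf; fun_prop

@[fun_prop] theorem pt_isMax (hS : PT S) (hw : PT w) : PT fun x => isMax (S x) (w x) := by
  unfold isMax; fun_prop

@[fun_prop] theorem pt_outB (hw : PT w) (hp : PT p) (hi : PT i) (hn : PT n) (hW : PT W) :
    PT fun x => outB (w x) (p x) (i x) (n x) (W x) := by
  unfold outB; fun_prop

@[fun_prop] theorem pt_certB (hw : PT w) (hp : PT p) (hi : PT i) (hn : PT n) (ho : PT o)
    (hW : PT W) : PT fun x => certB (w x) (p x) (i x) (n x) (o x) (W x) := by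
  unfold certB; fun_prop

@[fun_prop] theorem pt_ruleVal (hB : PT B) (hD : PT D) (hw : PT w) (hp : PT p) (hi : PT i)
    (hn : PT n) : PT fun x => ruleVal (B x) (D x) (w x) (p x) (i x) (n x) := by
  unfold ruleVal; fun_prop

@[fun_prop] theorem pt_anchors (hS : PT S) (hu : PT u) : PT fun x => anchors (S x) (u x) := by
  unfold anchors; fun_prop

@[fun_prop] theorem pt_need (hS : PT S) (hD : PT D) (hu : PT u) :
    PT fun x => need (S x) (D x) (u x) := by
  unfold need; fun_prop

@[fun_prop] theorem pt_tstep (hS : PT S) (hD : PT D) (hu : PT u) :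
    PT fun x => tstep (S x) (D x) (u x) := by
  unfold tstep; fun_prop

theorem pt_tokens : PT fun S : List (List α) => tokens S := by
  have h1 : PT fun S : List (List α) => tot S := by fun_prop
  have h2 : PT fun S : List (List α) => allFacs S := by fun_prop
  obtain ⟨Q, hQ⟩ := (h1.pb_nat.mul (h2.pb.add (PB.const 1))).add (PB.const 1)
  exact PT.foldl (F := fun S D u => tstep S D u) (by fun_prop) h2 (PT.const [])
    ⟨Q, fun S k => (sz_tokens_stage S k).trans (hQ S)⟩

@[fun_prop] theorem pt_lastT (hA : PT A) : PT fun x => lastT (A x) := by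
  unfold lastT; fun_prop

@[fun_prop] theorem pt_hd (hA : PT A) : PT fun x => hd (A x) := by
  unfold hd; fun_prop

@[fun_prop] theorem pt_rem {β : Type} [Enc β] {l : γ → List β} (hl : PT l) (hn : PT n) :
    PT fun x => rem (l x) (n x) := by
  unfold rem; fun_prop

@[fun_prop] theorem pt_pick (hP : PT P) : PT fun x => pick (P x) := by
  unfold pick; fun_prop

@[fun_prop] theorem pt_pick2 (ht : PT t) (hP : PT P) : PT fun x => pick2 (t x) (P x) := by
  unfold pick2; fun_prop

@[fun_prop] theorem pt_join (hA : PT A) (hP : PT P) (hC : PT Cy) :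
    PT fun x => join (A x) (P x) (Cy x) := by
  unfold join; fun_prop

@[fun_prop] theorem pt_cstep {st : γ → List (List (List α)) × List (List (List α))}
    (hs : PT st) : PT fun x => cstep (st x) := by
  unfold cstep; fun_prop

theorem pt_cycles : PT fun S : List (List α) => cycles (tokens S) := by
  have h1 : PT fun S : List (List α) => tokens S := pt_tokens
  obtain ⟨Q, hQ⟩ := ((PB.const 2).mul ((h1.pb.mul (h1.pb.add (PB.const 1))).add
    (PB.const 1))).add (PB.const 1)
  have h2 : PT fun S : List (List α) =>
      (((tokens S).map fun W => [W], []) : List (List (List α)) × List (List (List α))) := by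
    fun_prop
  exact (PT.foldl (F := fun _ st _ => cstep st) (by fun_prop) h1 h2
    ⟨Q, fun S k => (sz_of_cinv (cycles_stage (tokens_bal S) _).1).trans (hQ S)⟩).snd

@[fun_prop] theorem pt_rot {β : Type} [Enc β] {l : γ → List β} (hl : PT l) (hn : PT n) :
    PT fun x => rot (l x) (n x) := by
  unfold rot; fun_prop

@[fun_prop] theorem pt_spl (hL : PT L) (hK : PT K) : PT fun x => spl (L x) (K x) := by
  unfold spl; fun_prop

variable {st st' : γ → List (List α) × List (List (List α))}

@[fun_prop] theorem pt_astep (hs : PT st) (hK : PT K) : PT fun x => astep (st x) (K x) := by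
  unfold astep; fun_prop

@[fun_prop] theorem pt_absorb (hL : PT L) (hP : PT P) : PT fun x => absorb (L x) (P x) := by
  have h2 : PT fun x => ((L x, []) : List (List α) × List (List (List α))) := by fun_prop
  obtain ⟨Q, hQ⟩ := h2.pb.add hP.pb
  refine PT.foldl (F := fun _ s K => astep s K) (by fun_prop) hP h2 ⟨Q, fun x k => ?_⟩
  have h3 := sz_foldl_astep ((P x).take k) (L x, [])
  have h4 := sz_take_le k (P x)
  have h5 := hQ x
  beta_reduce at h5
  change sz (((P x).take k).foldl astep (L x, [])) ≤ _
  omega

@[fun_prop] theorem pt_tryMove (hs : PT st) (hK : PT K) : PT fun x => tryMove (st x) (K x) := by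
  unfold tryMove; fun_prop

@[fun_prop] theorem pt_phi (hs : PT st) : PT fun x => phi (st x) := by
  unfold phi; fun_prop

@[fun_prop] theorem pt_accept (hs : PT st) (hs' : PT st') :
    PT fun x => accept (st x) (st' x) := by
  unfold accept; fun_prop

@[fun_prop] theorem pt_loopT (ht : PT t) (hp : PT p) : PT fun x => loopT (t x) (p x) := by
  unfold loopT; fun_prop

@[fun_prop] theorem pt_texts (hC : PT Cy) (hB : PT B) : PT fun x => texts (Cy x) (B x) := by
  unfold texts; fun_prop

@[fun_prop] theorem pt_moves (hC : PT Cy) (hB : PT B) : PT fun x => moves (Cy x) (B x) := by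
  unfold moves; fun_prop

@[fun_prop] theorem pt_round (hM : PT Mv) (hs : PT st) : PT fun x => round (Mv x) (st x) := by
  unfold round; fun_prop

@[fun_prop] theorem pt_run (hM : PT Mv) (hC : PT Cy) : PT fun x => run (Mv x) (Cy x) := by
  have h1 : PT fun x => List.range ((Cy x).length + 1) := by fun_prop
  have h2 : PT fun x => (([[]], Cy x) : List (List α) × List (List (List α))) := by fun_prop
  exact PT.foldl_add (F := fun x s _ => round (Mv x) s) (by fun_prop) h1 h2 hM.pb
    (fun x s _ _ => sz_round _ _)

theorem pt_fin (hS : PT S) (hC : PT Cy) :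
    PT fun x => (run (moves (Cy x) (2 * tot (S x))) (Cy x)).1.flatMap fun W => W.take 1 := by
  fun_prop

theorem pt_solve : PT fun S : List (List α) => solve S :=
  (pt_fin (S := fun S => S) (Cy := fun S => cycles (tokens S)) PT.id pt_cycles).of_eq
    fun _ => by rw [solve]

end

lemma code_list {β : Type} [Enc β] {f : β → List Bool} (hf : ∀ x, (Enc.enc x).code = f x) :
    ∀ l : List β, (Enc.enc l).code = codeList f l
  | [] => rfl
  | x :: l => by rw [enc_cons, Tr.code, codeList, hf, code_list hf l]

lemma code_bit (b : Bool) : (Enc.enc b).code = codeBit b := by cases b <;> rfl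

lemma code_word (w : List (List Bool)) : (Enc.enc w).code = codeWord w :=
  code_list (code_list code_bit) w

lemma code_inst (S : List (List (List Bool))) : (Enc.enc S).code = codeInst S :=
  code_list code_word S

theorem two_approx :
    ∃ f : List (List (List Bool)) → List (List Bool),
      (∃ M : Turing.TM2ComputableInPolyTime codeInst codeWord f, ∀ k, Finite (M.tm.Γ k)) ∧
      ∀ S, IsSuperstring S (f S) ∧ (f S).length ≤ 2 * OPT S := by
  refine ⟨fun S => solve S, ?_, fun S => ⟨(solve_spec S).1, ?_⟩⟩
  · have h := (pt_solve (α := List Bool)).toTM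
    rw [funext code_inst, funext code_word] at h
    exact h
  · obtain ⟨T, h1, h2⟩ : OPT S ∈ {n | ∃ T, IsSuperstring S T ∧ T.length = n} :=
      Nat.sInf_mem ⟨_, _, sup_flat S, rfl⟩
    rw [← h2]
    exact (solve_spec S).2 T h1

end Vale.Agent.P333
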