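import Vale.Agent.P333.Count

/-! The token list realises the least forced counts. -/

namespace Vale.Agent.P333

set_option linter.unusedSectionVars false

variable {α : Type} [DecidableEq α] [Inhabited α]

lemma foldl_max_le {m : ℕ} : ∀ (l : List ℕ) (b : ℕ), l.foldl max b ≤ m ↔ b ≤ m ∧ ∀ x ∈ l, x ≤ m
  | [], b => by simp
  | a :: l, b => by simp [foldl_max_le l, and_assoc]

lemma ruleVal_eq (B : ℕ) (D : List (List α)) (w : List α) (p i n : ℕ) :
    ruleVal B D w p i n = 1 + D.countP (fun W => outB w p i n W) +
      ∑ o ∈ Finset.range B, D.countP fun W => certB w p i n o W := by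
  simp only [ruleVal, length_flatMap_range, List.countP_eq_length_filter]

lemma mem_anchors {S : List (List α)} {u w : List α} {p i : ℕ} :
    (w, p, i) ∈ anchors S u ↔ w ∈ S ∧ 0 < p ∧ p ≤ w.length ∧ i < w.length ∧
      (∀ s ∈ S, w <:+: s → s.length ≤ w.length) ∧ ext w p 0 w.length = w ∧ u <+: w.drop i := by
  simp only [anchors, List.mem_filter, List.mem_flatMap, List.mem_map, List.mem_range,
    Prod.mk.injEq, Bool.and_eq_true, isMax_iff, decide_eq_true_eq, pre_iff]
  constructor
  · rintro ⟨⟨w', hw, p', hp, i', hi, rfl, rfl, rfl⟩, h⟩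
    exact ⟨hw, by omega, by omega, hi, h⟩
  · rintro ⟨hw, h1, h2, h3, h⟩
    exact ⟨⟨w, hw, p - 1, by omega, i, h3, rfl, by omega, rfl⟩, h⟩

lemma need_le_iff {S D : List (List α)} {u : List α} {m : ℕ} :
    need S D u ≤ m ↔ 1 ≤ m ∧ (D.countP fun W => pre u W.tail) ≤ m ∧
      ∀ w p i, (w, p, i) ∈ anchors S u → ruleVal (tot S) D w p i u.length ≤ m := by
  simp only [need, foldl_max_le, max_le_iff, List.forall_mem_map, and_assoc, Prod.forall]

theorem need_le {S D : List (List α)} {T u : List α} (hT : Sup S T) (hD : ∀ W ∈ D, InV S W)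
    (ih : ∀ r, r ≠ [] → cnt D r ≤ cnt (sufs T) r) (hu : u ≠ []) (hV : InV S u) :
    need S D u ≤ cnt (sufs T) u := by
  classical
  have hn0 : 0 < u.length := List.length_pos_iff.2 hu
  refine need_le_iff.2 ⟨?_, ?_, ?_⟩
  · obtain ⟨s, hs, h⟩ := hV
    obtain ⟨j, hj, h'⟩ := infix_pos (h.trans (hT s hs))
    rw [cnt, countP_sufs]
    exact Finset.card_pos.2 ⟨j, Finset.mem_filter.2 ⟨Finset.mem_range.2 (by omega), pre_iff.2 h'⟩⟩
  · have := laminar (fun W => pre u W.tail) (fun W => pre u W.tail) _ (fun r => u <+: r.tail) D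
      (sufs T) le_rfl (fun r hr => ih r (by
        rintro rfl
        exact hu (List.prefix_nil.1 hr))) (fun x _ hx => ⟨x, pre_iff.1 hx, List.prefix_refl _⟩)
      (fun r hr y hy => pre_iff.2 (hr.trans (by
        obtain ⟨t, rfl⟩ := hy
        cases r with
        | nil => simp
        | cons a r => simp)))
    refine this.trans ?_
    rw [cnt, countP_sufs, countP_sufs]
    refine Finset.card_le_card_of_injOn (fun j => j + 1) (fun j hj => ?_)
      (fun a _ b _ h => by simpa using h)
    have h := pre_iff.1 (Finset.mem_filter.1 hj).2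
    rw [List.tail_drop] at h
    have := h.length_le
    rw [List.length_drop] at this
    exact Finset.mem_filter.2 ⟨Finset.mem_range.2 (by dsimp only; omega), pre_iff.2 h⟩
  · intro w p i hx
    obtain ⟨hw, hp, -, -, hmax, hext, hui⟩ := mem_anchors.1 hx
    rw [ruleVal_eq]
    refine rule_valid hT hD ih hp (cz_mul w p) hw hmax (fun k hk => ?_) hu hui _
      (fun W h => outB_iff.1 h) _ (fun o W h => (certB_iff hp).1 h)
    have := ext_get w p 0 hk
    rwa [hext, Nat.cast_zero, zero_add] at this

lemma need_snoc {S D : List (List α)} {u v : List α} (k : ℕ) (hu : u ≠ [])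
    (hv : v.length ≤ u.length) : need S (D ++ List.replicate k v) u = need S D u := by
  have hn0 : 0 < u.length := List.length_pos_iff.2 hu
  have key : ∀ P : List α → Bool, P v = false →
      (D ++ List.replicate k v).countP P = D.countP P := by
    intro P hP
    rw [List.countP_append, List.countP_replicate, hP]
    simp
  unfold need
  congr 1
  · rw [key]
    rw [← Bool.not_eq_true, pre_iff]
    intro h
    have := h.length_le
    rw [List.length_tail] at this
    omega
  · refine List.map_congr_left ?_
    rintro ⟨w, p, i⟩ hx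
    have hp := (mem_anchors.1 hx).2.1
    rw [ruleVal_eq, ruleVal_eq, key]
    · congr 1
      refine Finset.sum_congr rfl fun o _ => key _ ?_
      rw [← Bool.not_eq_true, certB_iff hp]
      rintro ⟨-, -, k, h1, -, h2, -⟩
      omega
    · rw [← Bool.not_eq_true, outB_iff]
      intro h
      have := (List.getElem?_eq_some_iff.1 (h u.length (by dsimp only; omega))).1
      omega

theorem tokens_inv (S : List (List α)) (U : List (List α))
    (hs : U.Pairwise fun a b => b.length ≤ a.length) (hU : ∀ u ∈ U, u ≠ [] ∧ InV S u) :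
    (∀ W ∈ U.foldl (tstep S) [], W ∈ U) ∧
    (∀ u ∈ U, need S (U.foldl (tstep S) []) u ≤ cnt (U.foldl (tstep S) []) u) ∧
    ∀ T, Sup S T → ∀ r, r ≠ [] → cnt (U.foldl (tstep S) []) r ≤ cnt (sufs T) r := by
  classical
  induction U using List.reverseRecOn with
  | nil => simp [cnt]
  | append_singleton U v ih =>
    rw [List.pairwise_append] at hs
    obtain ⟨i1, i2, i3⟩ := ih hs.1 fun u hu => hU u (by simp [hu])
    have hv := hU v (by simp)
    rw [List.foldl_append]
    simp only [List.foldl_cons, List.foldl_nil]
    generalize U.foldl (tstep S) [] = D at i1 i2 i3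
    have hc : ∀ r, cnt (tstep S D v) r =
        cnt D r + if r <+: v then need S D v - cnt D v else 0 := by
      intro r
      simp only [cnt, tstep, List.countP_append, List.countP_replicate, pre_iff]
    refine ⟨fun W hW => ?_, fun u hu => ?_, fun T hT => ?_⟩
    · rcases List.mem_append.1 hW with h | h
      · simp [i1 W h]
      · simp [List.eq_of_mem_replicate h]
    · rw [hc, tstep]
      rcases List.mem_append.1 hu with h | h
      · rw [need_snoc _ (hU u hu).1 (hs.2.2 u h v (by simp))]
        have := i2 u h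
        omega
      · rw [List.mem_singleton.1 h, need_snoc _ hv.1 le_rfl, if_pos (List.prefix_refl _)]
        omega
    · have hvv : cnt (tstep S D v) v ≤ cnt (sufs T) v := by
        have h1 := need_le hT (fun W hW => (hU W (by simp [i1 W hW])).2) (i3 T hT) hv.1 hv.2
        have h2 := i3 T hT v hv.1
        rw [hc, if_pos (List.prefix_refl _)]
        omega
      have hlen : ∀ r, r.length = v.length → cnt (tstep S D v) r ≤ cnt (sufs T) r := by
        intro r hr
        by_cases c : r <+: v
        · rw [c.eq_of_length hr]; exact hvv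
        · rw [hc, if_neg c]
          refine i3 T hT r ?_
          rintro rfl
          exact c List.nil_prefix
      intro r hr
      by_cases c : r <+: v
      swap
      · rw [hc, if_neg c]
        exact i3 T hT r hr
      refine laminar (fun W => pre r W) (fun W => pre r W) _
        (fun t => t.length = v.length ∧ r <+: t) _ _ le_rfl (fun t ht => hlen t ht.1)
        (fun x hx hrx => ⟨x.take v.length, ⟨?_, ?_⟩, List.take_prefix _ _⟩)
        (fun t ht y hy => pre_iff.2 (ht.2.trans hy))
      · rw [List.length_take]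
        refine min_eq_left ?_
        rcases List.mem_append.1 hx with h | h
        · exact hs.2.2 x (i1 x h) v (by simp)
        · rw [List.eq_of_mem_replicate h]
      · exact List.prefix_take_iff.2 ⟨pre_iff.1 hrx, c.length_le⟩

lemma mem_facs {S : List (List α)} {u : List α} {n : ℕ} :
    u ∈ facs S n ↔ u.length = n ∧ InV S u := by
  simp only [facs, List.mem_flatMap, List.mem_map, List.mem_range]
  constructor
  · rintro ⟨w, hw, i, hi, rfl⟩
    exact ⟨by simp; omega, w, hw,
      (List.take_prefix _ _).isInfix.trans (List.drop_suffix _ _).isInfix⟩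
  · rintro ⟨rfl, w, hw, h⟩
    obtain ⟨j, hj, h'⟩ := infix_pos h
    exact ⟨w, hw, j, by omega, (List.prefix_iff_eq_take.1 h').symm⟩

lemma sup_flat (S : List (List α)) : Sup S (S.flatMap fun w => w) := fun s hs => by
  rw [List.flatMap_id']
  exact List.infix_of_mem_flatten hs

lemma InV.le_tot {S : List (List α)} {u : List α} (h : InV S u) : u.length ≤ tot S :=
  let ⟨s, hs, h'⟩ := h; (h'.trans (sup_flat S s hs)).length_le

lemma mem_allFacs {S : List (List α)} {u : List α} : u ∈ allFacs S ↔ u ≠ [] ∧ InV S u := by
  simp only [allFacs, List.mem_flatMap, List.mem_reverse, List.mem_range, mem_facs]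
  constructor
  · rintro ⟨n, -, h1, h2⟩
    exact ⟨List.length_pos_iff.1 (by omega), h2⟩
  · rintro ⟨h1, h2⟩
    have := List.length_pos_iff.2 h1
    have := h2.le_tot
    exact ⟨u.length - 1, by omega, by omega, h2⟩

lemma allFacs_sorted (S : List (List α)) :
    (allFacs S).Pairwise fun a b => b.length ≤ a.length := by
  rw [allFacs, List.pairwise_flatMap]
  refine ⟨fun n _ => List.pairwise_of_forall_mem_list fun a ha b hb => ?_, ?_⟩
  · rw [(mem_facs.1 ha).1, (mem_facs.1 hb).1]
  · rw [List.pairwise_reverse]
    refine List.pairwise_lt_range.imp fun {a b} h x hx y hy => ?_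
    rw [(mem_facs.1 hx).1, (mem_facs.1 hy).1]
    omega

lemma length_le_of_cnt {D : List (List α)} {T : List α} (h0 : ∀ W ∈ D, W ≠ [])
    (h : ∀ r, r ≠ [] → cnt D r ≤ cnt (sufs T) r) : D.length ≤ T.length := by
  have := laminar (fun _ => true) (fun _ => true) _ (fun r => r ≠ []) D (sufs T) le_rfl h
    (fun x hx _ => ⟨x, h0 x hx, List.prefix_refl _⟩) (fun _ _ _ _ => rfl)
  simpa [sufs] using this

/-- Size facts for every stage of the token computation. -/
theorem tokens_stage (S : List (List α)) (k : ℕ) :
    (((allFacs S).take k).foldl (tstep S) []).length ≤ tot S ∧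
      ∀ W ∈ ((allFacs S).take k).foldl (tstep S) [], W ∈ allFacs S := by
  obtain ⟨h1, -, h3⟩ := tokens_inv S ((allFacs S).take k)
    ((allFacs_sorted S).sublist (List.take_sublist _ _))
    (fun u hu => mem_allFacs.1 (List.mem_of_mem_take hu))
  exact ⟨length_le_of_cnt (fun W hW => (mem_allFacs.1 (List.mem_of_mem_take (h1 W hW))).1)
    (h3 _ (sup_flat S)), fun W hW => List.mem_of_mem_take (h1 W hW)⟩

theorem tokens_mem {S : List (List α)} {W : List α} (h : W ∈ tokens S) : W ≠ [] ∧ InV S W :=
  mem_allFacs.1 ((tokens_inv S _ (allFacs_sorted S) fun _ hu => mem_allFacs.1 hu).1 W h)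

theorem tokens_need {S : List (List α)} {u : List α} (hu : u ≠ []) (hV : InV S u) :
    need S (tokens S) u ≤ cnt (tokens S) u :=
  (tokens_inv S _ (allFacs_sorted S) fun _ hu => mem_allFacs.1 hu).2.1 u (mem_allFacs.2 ⟨hu, hV⟩)

theorem tokens_length {S : List (List α)} {T : List α} (hT : Sup S T) :
    (tokens S).length ≤ T.length :=
  length_le_of_cnt (fun _ h => (tokens_mem h).1)
    ((tokens_inv S _ (allFacs_sorted S) fun _ hu => mem_allFacs.1 hu).2.2 T hT)

theorem tokens_bal (S : List (List α)) (s : List α) :
    ((tokens S).countP fun W => pre s W.tail) ≤ cnt (tokens S) s := by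
  by_cases h0 : s = []
  · subst h0
    simp [cnt, pre]
  by_cases hV : InV S s
  · exact (need_le_iff.1 (tokens_need h0 hV)).2.1
  · rw [List.countP_eq_zero.2]
    · exact Nat.zero_le _
    · intro W hW h
      exact hV ((tokens_mem hW).2.mono
        ((pre_iff.1 h).isInfix.trans (List.tail_suffix W).isInfix))

end Vale.Agent.P333
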